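import Mathlib
import Crest.Prelude.Def_OracleSampling

/-! Row 285 (log-concave sampling with `d^ε` queries): all definitions.

Overview.  `Z W s = e^{-W} * N(0,s)`, `Phi W s = -log Z W s`, `F W s = ∇ Phi W s` (the score of the
heat-smoothed law).  On `Pt d = (θ, ω₀, ω₁)` we put the laws `pm U θ ∝ γ⊗γ · Z(1-|θ|², θ₀ω₀+θ₁ω₁)`,
which satisfy a continuity equation with the velocity fields `XV D`.  Taylor polynomials in time
along `XD D` transport these laws up to high order (`Transport.lean`); they are approximated by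
Picard collocation `Pic`, finite differences `Dif`, and the noise-compensation term `Corr`.
`Comp/App/Acc` describe what can be computed from oracle queries. -/

set_option autoImplicit false

namespace Crest.Agent.R285

open MeasureTheory ProbabilityTheory Crest.OracleSampling Set
open scoped ENNReal NNReal InnerProductSpace

noncomputable section

/-! ### Basic notions -/

/-- The standard Gaussian. -/
abbrev gam (d : ℕ) : Measure (E d) := stdGaussian (E d)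

/-- Elementary Lipschitz predicate. -/
def Lip {X Y : Type*} [NormedAddCommGroup X] [NormedAddCommGroup Y] (L : ℝ) (f : X → Y) : Prop :=
  ∀ x y, ‖f x - f y‖ ≤ L * ‖x - y‖

/-- Smoothness (`ContDiff ℝ ∞`; the `ContDiff` scope is not opened since it reserves `ω`). -/
abbrev Sm {X Y : Type*} [NormedAddCommGroup X] [NormedSpace ℝ X] [NormedAddCommGroup Y]
    [NormedSpace ℝ Y] (f : X → Y) : Prop := ContDiff ℝ ((⊤ : ℕ∞) : WithTop ℕ∞) f

/-- Temperate growth: smooth with polynomially bounded derivatives. -/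
abbrev TG {X Y : Type*} [NormedAddCommGroup X] [NormedSpace ℝ X] [NormedAddCommGroup Y]
    [NormedSpace ℝ Y] (f : X → Y) : Prop := Function.HasTemperateGrowth f

/-- `C¹` with polynomially bounded value and derivative. -/
def PG1 {X Y : Type*} [NormedAddCommGroup X] [NormedSpace ℝ X] [NormedAddCommGroup Y]
    [NormedSpace ℝ Y] (f : X → Y) : Prop :=
  ContDiff ℝ 1 f ∧ ∃ (C : ℝ) (N : ℕ), ∀ p, ‖f p‖ ≤ C * (1 + ‖p‖) ^ N ∧
    ‖fderiv ℝ f p‖ ≤ C * (1 + ‖p‖) ^ N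

/-- Convex, `C²`, with `2h`-Lipschitz gradient. -/
structure Nice {d : ℕ} (h : ℝ) (U : E d → ℝ) : Prop where
  smooth : ContDiff ℝ 2 U
  cvx : ConvexOn ℝ univ U
  lip : Lip (2 * h) (gradient U)

/-- `W` is `c⁻¹`-strongly convex. -/
def SC {d : ℕ} (c : ℝ) (W : E d → ℝ) : Prop :=
  ConvexOn ℝ univ fun x => W x - ‖x‖ ^ 2 / (2 * c)

/-- The Gibbs law `∝ e^{-W}`. -/
def gib {d : ℕ} (W : E d → ℝ) : Measure (E d) := (volume : Measure (E d)).tilted fun x => -W x

/-- The law `∝ exp (-W y - |y - x|² / (2 s))`. -/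
def nu {d : ℕ} (W : E d → ℝ) (s : ℝ) (x : E d) : Measure (E d) :=
  gib fun y => W y + ‖y - x‖ ^ 2 / (2 * s)

/-- Heat smoothing of `e^{-W}`. -/
def Z {d : ℕ} (W : E d → ℝ) (s : ℝ) (x : E d) : ℝ := ∫ ξ, Real.exp (-W (x + √s • ξ)) ∂gam d

/-- The smoothed potential. -/
def Phi {d : ℕ} (W : E d → ℝ) (s : ℝ) (x : E d) : ℝ := -Real.log (Z W s x)

/-- The gradient of the smoothed potential. -/
def F {d : ℕ} (W : E d → ℝ) (s : ℝ) (x : E d) : E d := gradient (Phi W s) x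

/-- A probability measure with all exponential moments and a Poincaré inequality. -/
structure PM {d : ℕ} (c : ℝ) (μ : Measure (E d)) : Prop where
  prob : IsProbabilityMeasure μ
  expm : ∀ a : ℝ, Integrable (fun y => Real.exp (a * ‖y‖)) μ
  poinc : ∀ f : E d → ℝ, PG1 f → ∫ y, f y ∂μ = 0 →
    ∫ y, f y ^ 2 ∂μ ≤ c * ∫ y, ‖fderiv ℝ f y‖ ^ 2 ∂μ

/-! ### Iterated directional derivatives, tensors -/

/-- Directional derivative. -/
def D1 {P Y : Type*} [NormedAddCommGroup P] [NormedSpace ℝ P] [NormedAddCommGroup Y]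
    [NormedSpace ℝ Y] (v : P) (f : P → Y) : P → Y := fun p => fderiv ℝ f p v

/-- Iterated directional derivative along a multiset of directions. -/
def DM {P : Type*} [NormedAddCommGroup P] [NormedSpace ℝ P] (m : Multiset P) (f : P → ℝ) :
    P → ℝ := m.toList.foldr D1 f

/-- Basis vector. -/
def ex {d : ℕ} (c : Fin d) : E d := EuclideanSpace.single c 1

/-- The multiset of values of a multi-index. -/
def ms {ι α : Type*} [Fintype ι] (x : ι → α) : Multiset α := Finset.univ.val.map x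

/-- The kernel `k` is the matrix of an operator of `ℓ²`-norm at most `C`. -/
def OpB {X Y : Type*} [Fintype X] [Fintype Y] (C : ℝ) (k : X → Y → ℝ) : Prop :=
  ∀ b : Y → ℝ, ∑ x, (∑ y, k x y * b y) ^ 2 ≤ C ^ 2 * ∑ y, b y ^ 2

/-- The bump used in the level cutoff. -/
def bump : ContDiffBump (1 : ℝ) := ⟨3 / 4, 7 / 8, by norm_num, by norm_num⟩

/-- Level cutoff: the identity on `[1/4, 7/4]`, with values in `[1/8, 2]`. -/
def psi (s : ℝ) : ℝ := 1 + bump s * (s - 1)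

/-- The globally smooth version of `Phi`. -/
def PhT {d : ℕ} (U : E d → ℝ) : ℝ × E d → ℝ := fun p => Phi U (psi p.1) p.2

/-- Normalized space derivatives of `PhT`. -/
def Tn {d : ℕ} (U : E d → ℝ) (h : ℝ) (m : Multiset (Fin d)) : ℝ × E d → ℝ :=
  fun p => h⁻¹ * DM (m.map fun c => ((0 : ℝ), ex c)) (PhT U) p

/-! ### The two-noise space and its calculus -/

abbrev Th := Fin 2 → ℝ
abbrev Om (d : ℕ) := Fin 2 → E d
abbrev Pt (d : ℕ) := Th × Om d

def lev (θ : Th) : ℝ := 1 - ∑ k, θ k ^ 2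

def pos {d : ℕ} (θ : Th) (ω : Om d) : E d := ∑ k, θ k • ω k

/-- The law of `ω` at parameter `θ`. -/
def pm {d : ℕ} (U : E d → ℝ) (θ : Th) : Measure (Om d) :=
  (Measure.pi fun _ : Fin 2 => gam d).tilted fun ω => -Phi U (lev θ) (pos θ ω)

/-- The first marginal of `pm U (t, 0)`. -/
def kd {d : ℕ} (U : E d → ℝ) (t : ℝ) : Measure (E d) :=
  (gam d).tilted fun η => -Phi U (1 - t ^ 2) (t • η)

/-- The normalized score field. -/
def Gf {d : ℕ} (U : E d → ℝ) (h : ℝ) (θ : Th) (ω : Om d) : E d :=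
  h⁻¹ • F U (lev θ) (pos θ ω)

/-- Unit vectors of the parameter plane. -/
def eu (k : Fin 2) : Th := Pi.single k 1

/-- The data over which all constants are uniform. -/
structure Dat where
  d : ℕ
  U : E d → ℝ
  h : ℝ
  e : Th
  κ : ℝ
  nice : Nice h U
  hpos : 0 < h
  hle : h ≤ 1
  he : ‖e‖ ≤ 1
  hκ : |κ| ≤ 1

def TT (D : Dat) (m : Multiset (Fin D.d)) : Pt D.d → ℝ :=
  fun p => Tn D.U D.h m (lev p.1, pos p.1 p.2)

/-- Partial derivative in the coordinate `c` of `ω k`. -/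
def par {d : ℕ} (k : Fin 2) (c : Fin d) (f : Pt d → ℝ) : Pt d → ℝ :=
  D1 ((0 : Th), (Pi.single k (ex c) : Om d)) f

/-- The adjoint of `par k c` in `L²(pm U θ)`. -/
def del (D : Dat) (k : Fin 2) (c : Fin D.d) (f : Pt D.d → ℝ) : Pt D.d → ℝ :=
  fun p => (p.2 k c + D.h * p.1 k * TT D {c} p) * f p - par k c f p

def gv (D : Dat) : Pt D.d → E D.d := fun p => WithLp.toLp 2 fun c => TT D {c} p

def av (D : Dat) (k : Fin 2) : Pt D.d → E D.d :=
  fun p => WithLp.toLp 2 fun c => ∑ b, del D k b (TT D {b, c}) p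

/-- The probability-flow velocity. -/
def BV (D : Dat) : Pt D.d → Om D.d := fun p k => -(D.h * D.e k) • gv D p

/-- The divergence-free velocity. -/
def RV (D : Dat) : Pt D.d → Om D.d := fun p => ![av D 1 p, -av D 0 p]

def XV (D : Dat) : Pt D.d → Om D.d := fun p => BV D p + D.κ • RV D p

def BD (D : Dat) {Y : Type*} [NormedAddCommGroup Y] [NormedSpace ℝ Y] (f : Pt D.d → Y) :
    Pt D.d → Y := fun p => fderiv ℝ f p (D.e, BV D p)

def CD (D : Dat) {Y : Type*} [NormedAddCommGroup Y] [NormedSpace ℝ Y] (f : Pt D.d → Y) :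
    Pt D.d → Y := fun p => fderiv ℝ f p (0, RV D p)

/-- The derivative along the space-time field `(e, XV)`. -/
def XD (D : Dat) {Y : Type*} [NormedAddCommGroup Y] [NormedSpace ℝ Y] (f : Pt D.d → Y) :
    Pt D.d → Y := fun p => fderiv ℝ f p (D.e, XV D p)

/-- Taylor polynomial in time along `XD`. -/
def Tay (D : Dat) {Y : Type*} [NormedAddCommGroup Y] [NormedSpace ℝ Y] (K : ℕ) (ψ : Pt D.d → Y)
    (t : ℝ) : Pt D.d → Y :=
  fun p => ∑ k ∈ Finset.range (K + 1), (t ^ k / k.factorial) • (XD D)^[k] ψ p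

/-! ### Families of tensor fields and Sobolev-type classes -/

abbrev Fam (I : Dat → Type) := ∀ D : Dat, I D → Pt D.d → ℝ

def H0 {I : Dat → Type} [∀ D, Fintype (I D)] (S : Fam I) : Prop :=
  (∀ D i, TG (S D i)) ∧ ∃ C : ℝ, ∀ (D : Dat) (θ : Th), ‖θ‖ < 1 / 2 →
    ∫ ω, ∑ i, S D i (θ, ω) ^ 2 ∂pm D.U θ ≤ C * D.d

def parF {I : Dat → Type} (l : Fin 2) (S : Fam I) : Fam fun D => Fin D.d × I D :=
  fun D x => par l x.1 (S D x.2)

def delF {I : Dat → Type} (k : Fin 2) (S : Fam fun D => Fin D.d × I D) : Fam I :=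
  fun D i p => ∑ c, del D k c (S D (c, i)) p

def mulF {O J P : Dat → Type} [∀ D, Fintype (J D)] (k : ∀ D : Dat, O D → J D → Pt D.d → ℝ)
    (S : Fam fun D => J D × P D) : Fam fun D => O D × P D :=
  fun D x p => ∑ y, k D x.1 y p * S D (y, x.2) p

def BF {I : Dat → Type} (S : Fam I) : Fam I := fun D i => BD D (S D i)
def CF {I : Dat → Type} (S : Fam I) : Fam I := fun D i => CD D (S D i)
def XF {I : Dat → Type} (S : Fam I) : Fam I := fun D i => XD D (S D i)

/-- The kernel given by a flattening of the derivative tensors. -/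
def TK (ιO ιJ : Type) [Fintype ιO] [Fintype ιJ] :
    ∀ D : Dat, (ιO → Fin D.d) → (ιJ → Fin D.d) → Pt D.d → ℝ :=
  fun D x y => TT D (ms x + ms y)

/-- The derivative tensors as a family. -/
def TR (ι : Type) [Fintype ι] : Fam fun D => ι → Fin D.d := fun D x => TT D (ms x)

def HS : ℕ → ∀ {I : Dat → Type} [∀ D, Fintype (I D)], Fam I → Prop
  | 0, _, _, S => H0 S
  | k + 1, _, _, S => H0 S ∧ ∀ l, HS k (parF l S)

def G0 {I : Dat → Type} [∀ D, Fintype (I D)] (S : Fam I) : Prop := ∀ k, HS k S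

def Good {I : Dat → Type} [∀ D, Fintype (I D)] : ℕ → Fam I → Prop
  | 0, S => G0 S
  | j + 1, S => G0 S ∧ Good j (BF S)

/-! ### Collocation schemes -/

theorem exists_vdm (K : ℕ) (r : ℕ → ℝ) :
    ∃ c : ℕ → ℝ, ∀ k ≤ K, ∑ l ∈ Finset.range (K + 1), c l * (l : ℝ) ^ k = r k := by
  have hdet : (Matrix.vandermonde fun i : Fin (K + 1) => (i : ℝ)).det ≠ 0 := by
    rw [Matrix.det_vandermonde_ne_zero_iff]
    intro i j hij
    exact Fin.ext (by simpa using hij)
  have hU : IsUnit (Matrix.vandermonde fun i : Fin (K + 1) => (i : ℝ)) :=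
    (Matrix.isUnit_iff_isUnit_det _).2 (isUnit_iff_ne_zero.2 hdet)
  obtain ⟨c, hc⟩ := Matrix.vecMul_surjective_iff_isUnit.2 hU fun k => r k
  refine ⟨fun l => if h : l < K + 1 then c ⟨l, h⟩ else 0, fun k hk => ?_⟩
  have := congrFun hc ⟨k, Nat.lt_succ_of_le hk⟩
  simp only [Matrix.vecMul, dotProduct, Matrix.vandermonde_apply] at this
  rw [← this, Finset.sum_range]
  refine Finset.sum_congr rfl fun i _ => ?_
  simp [i.2]

/-- Finite-difference coefficients: `∑ l, qc K l * l ^ k = [k = 1]` for `k ≤ K`. -/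
def qc (K : ℕ) : ℕ → ℝ := (exists_vdm K fun k => if k = 1 then 1 else 0).choose

/-- Quadrature weights: `∑ i, qw K j i * i ^ k = j ^ (k+1) / (k+1)` for `k ≤ K`. -/
def qw (K j : ℕ) : ℕ → ℝ := (exists_vdm K fun k => (j : ℝ) ^ (k + 1) / (k + 1)).choose

theorem qc_spec (K k : ℕ) (hk : k ≤ K) :
    ∑ l ∈ Finset.range (K + 1), qc K l * (l : ℝ) ^ k = if k = 1 then 1 else 0 :=
  (exists_vdm K fun k => if k = 1 then 1 else 0).choose_spec k hk

theorem qw_spec (K j k : ℕ) (hk : k ≤ K) :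
    ∑ i ∈ Finset.range (K + 1), qw K j i * (i : ℝ) ^ k = (j : ℝ) ^ (k + 1) / (k + 1) :=
  (exists_vdm K fun k => (j : ℝ) ^ (k + 1) / (k + 1)).choose_spec k hk

/-- A bound for the coefficient sums. -/
def Cq (K : ℕ) : ℝ := 1 + ∑ l ∈ Finset.range (K + 1), |qc K l| +
  ∑ j ∈ Finset.range (K + 1), ∑ i ∈ Finset.range (K + 1), |qw K j i|

/-- Picard collocation for the field `W` along `θ + t e`: iterate `n`, node `j`. -/
def Pic {d : ℕ} (K : ℕ) (τ : ℝ) (W : Th → Om d → Om d) (e : Th) : ℕ → ℕ → Th → Om d → Om d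
  | 0, _, _, ω => ω
  | n + 1, j, θ, ω => ω + τ • ∑ i ∈ Finset.range (K + 1),
      qw K j i • W (θ + ((i : ℝ) * τ) • e) (Pic K τ W e n i θ ω)

/-- Finite difference of `G` along the collocation path. -/
def Dif {d : ℕ} (K : ℕ) (τ : ℝ) (n : ℕ) (G : Th → Om d → E d) (W : Th → Om d → Om d) (e : Th)
    (θ : Th) (ω : Om d) : E d :=
  τ⁻¹ • ∑ l ∈ Finset.range (K + 1), qc K l • G (θ + ((l : ℝ) * τ) • e) (Pic K τ W e n l θ ω)

def W0 {d : ℕ} (h : ℝ) (G : Th → Om d → E d) (e : Th) (θ : Th) (ω : Om d) : Om d :=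
  fun k => -(h * e k) • G θ ω

/-- Approximation of `av`. -/
def ah {d : ℕ} (K : ℕ) (τ : ℝ) (n : ℕ) (h : ℝ) (G : Th → Om d → E d) (k : Fin 2) :
    Th → Om d → E d := Dif K τ n G (W0 h G (eu k)) (eu k)

/-- Approximation of `XV`. -/
def W1 {d : ℕ} (K : ℕ) (τ : ℝ) (n : ℕ) (h : ℝ) (G : Th → Om d → E d) (e : Th) (κ : ℝ)
    (θ : Th) (ω : Om d) : Om d :=
  W0 h G e θ ω + κ • ![ah K τ n h G 1 θ ω, -ah K τ n h G 0 θ ω]

/-- Approximation of `CD D (gv D)`. -/
def Ch {d : ℕ} (K : ℕ) (τ : ℝ) (n : ℕ) (h : ℝ) (G : Th → Om d → E d) (κ' : ℝ)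
    (θ : Th) (ω : Om d) : E d :=
  κ'⁻¹ • (Dif K τ n G (W1 K τ n h G (eu 0) κ') (eu 0) θ ω - ah K τ n h G 0 θ ω)

/-- The noise-compensation term. -/
def Corr {d : ℕ} (K : ℕ) (τ : ℝ) (n : ℕ) (h : ℝ) (G : Th → Om d → E d) (κ κ' : ℝ)
    (ω : Om d) : E d :=
  (κ ^ 2 * τ) • ∑ i ∈ Finset.range (K + 1), qw K K i •
    Ch K τ n h G κ' (((K : ℝ) * τ) • eu 0 + ((i : ℝ) * τ) • (-eu 0))
      (Pic K τ (W1 K τ n h G (-eu 0) (-κ)) (-eu 0) n i (((K : ℝ) * τ) • eu 0) ω)

/-- The sampling map. -/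
def Smp {d : ℕ} (K : ℕ) (τ : ℝ) (n : ℕ) (h : ℝ) (G : Th → Om d → E d) (ω : Om d) : E d :=
  Pic K τ (W0 h G (eu 0)) (eu 0) n K 0 ω 0

/-! ### Query computations -/

/-- Admissible potentials. -/
def Pot (d : ℕ) : Type := {V : E d → ℝ // Admissible d V}

/-- `Φ` is computed from its input with `n` adaptive oracle queries. -/
def Comp {d : ℕ} : ℕ → ∀ {S R : Type} [MeasurableSpace S] [MeasurableSpace R],
    (Pot d → S → R) → Prop
  | 0, S, R, _, _, Φ => ∃ φ : S → R, Measurable φ ∧ ∀ V s, Φ V s = φ s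
  | n + 1, S, R, _, _, Φ => ∃ x : S → E d, Measurable x ∧ ∃ Ψ : Pot d → S × Answer d → R,
      Comp n Ψ ∧ ∀ V s, Φ V s = Ψ V (s, oracle V.1 (x s))

/-- A randomized computation with at most `q` queries whose output law, on input `a`, is within
`e V a` of the functional `T V a` on Lipschitz test functions. -/
def App {d : ℕ} {A : Type} [MeasurableSpace A] (q : ℝ) (e : Pot d → A → ℝ)
    (T : Pot d → A → (E d → ℝ) → ℝ) : Prop :=
  ∃ (n : ℕ) (Ω : Type) (_ : MeasurableSpace Ω) (μ : Measure Ω) (_ : IsProbabilityMeasure μ)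
    (Φ : Pot d → A × Ω → E d), (n : ℝ) ≤ q ∧ Comp n Φ ∧
    (∀ V a, Integrable (fun ω => Φ V (a, ω)) μ) ∧
    ∀ V a (L : ℝ) (f : E d → ℝ), 0 ≤ L → Lip L f →
      |∫ ω, f (Φ V (a, ω)) ∂μ - T V a f| ≤ L * e V a

/-- Access to `u` with Gaussian noise of size `σ`. -/
def Acc {d : ℕ} {A : Type} [MeasurableSpace A] (q σ : ℝ) (e : Pot d → A → ℝ)
    (u : Pot d → A → E d) : Prop :=
  App q e fun V a f => ∫ ξ, f (u V a + σ • ξ) ∂gam d

/-- Approximate sampling from `μ V`. -/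
def Near {d : ℕ} (q e : ℝ) (μ : Pot d → Measure (E d)) : Prop :=
  App (A := Unit) q (fun _ _ => e) fun V _ f => ∫ x, f x ∂μ V

/-- A score engine at level `v`: output noise `σ`, admissible input noise `ρ`, blow-up `M`,
absolute accuracy `ζ`. -/
def Eng (d : ℕ) (N v σ ρ M ζ : ℝ) : Prop :=
  ∀ (A : Type) [MeasurableSpace A] (q : ℝ) (e : Pot d → A → ℝ) (u : Pot d → A → E d),
    Acc q ρ e u → Acc (M * (q + 1)) σ (fun V a => M * (e V a + ζ * (√N + ‖u V a‖)))
      fun V a => F V.1 v (u V a)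

/-- Engines at all levels `v ≤ vmax`, noise ratio `r`, relative input noise `ρ`, relative
accuracy `η`. -/
def UE (d : ℕ) (N vmax r ρ M η : ℝ) : Prop :=
  ∀ v σ : ℝ, 0 < v → v ≤ vmax → 0 < σ → √v ≤ r * σ → Eng d N v σ (ρ * √v) M (σ * η)

/-- The asymptotic engine statement. -/
def PE (a₀ a L : ℝ) : Prop :=
  ∀ ε : ℝ, 0 < ε → ∀ᶠ N : ℝ in Filter.atTop, ∀ d : ℕ, (d : ℝ) ≤ N →
    UE d N (N ^ (-a₀)) (N ^ (-a)) (N ^ (-ε)) (N ^ ε) (N ^ (-L))

/-- Displacements of size `ρ`. -/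
def Disp {d : ℕ} {A : Type} [MeasurableSpace A] (Gb wt : Pot d → A → ℝ) (s₁ ρ q e : ℝ)
    (Δ : Pot d → A → Om d) : Prop :=
  (∀ V a, ‖Δ V a‖ ≤ ρ * Gb V a) ∧
    ∀ k, Acc q (ρ * s₁) (fun V a => e * wt V a) fun V a => Δ V a k

/-- Access to the field `W` at displaced points. -/
def FAcc {d : ℕ} {A : Type} [MeasurableSpace A] (ω₀ : Pot d → A → Om d)
    (Gb wt wt' : Pot d → A → ℝ) (s₁ q₀ R ρ M σ : ℝ)
    (W : Pot d → A → Th → Om d → E d) : Prop :=
  ∀ θ : Th, ‖θ‖ ≤ R → ∀ (q e : ℝ) (Δ : Pot d → A → Om d), 0 ≤ q → 0 ≤ e →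
    Disp Gb wt s₁ ρ q e Δ →
    Acc (M * (q + q₀)) σ (fun V a => M * ((e + 1) * wt V a + wt' V a))
      fun V a => W V a θ (ω₀ V a + Δ V a)

/-- The rescaled potential. -/
def resc {d : ℕ} (V : E d → ℝ) (u : E d) (v : ℝ) : E d → ℝ := fun x => V (u + √v • x)

/-- The one-step backward kernel as a functional. -/
def Kd {d : ℕ} (V : E d → ℝ) (v t : ℝ) (u : E d) : Measure (E d) :=
  nu (Phi V (v * (1 - t ^ 2))) (v * t ^ 2) u

end

end Crest.Agent.R285
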