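import Crest.Agent.R285.MD

/-! Row 285: smoothness of exponential-family integrals. -/

set_option autoImplicit false

namespace Crest.Agent.R285

open MeasureTheory ProbabilityTheory Crest.OracleSampling Set
open scoped ENNReal NNReal InnerProductSpace

section
variable {P Y : Type*} [NormedAddCommGroup P] [NormedSpace ℝ P] [FiniteDimensional ℝ P]
  [MeasurableSpace Y]

/-- Local exponential integrability of the weight `Q` on the parameter set `O`. -/
def EI (μ : Measure Y) (ℓ : Y → P →L[ℝ] ℝ) (O : Set P) (Q : Y → ℝ) : Prop :=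
  AEStronglyMeasurable Q μ ∧
    ∀ p ∈ O, ∃ ε > 0, Integrable (fun y => Q y * Real.exp (ℓ y p + ε * ‖ℓ y‖)) μ

omit [FiniteDimensional ℝ P] in
theorem aesm_mul_exp {μ : Measure Y} {ℓ : Y → P →L[ℝ] ℝ} (hℓ : AEStronglyMeasurable ℓ μ)
    {Q : Y → ℝ} (hQ : AEStronglyMeasurable Q μ) (p : P) (ε : ℝ) :
    AEStronglyMeasurable (fun y => Q y * Real.exp (ℓ y p + ε * ‖ℓ y‖)) μ :=
  hQ.mul (Real.continuous_exp.comp_aestronglyMeasurable
    ((hℓ.apply_continuousLinearMap p).add (hℓ.norm.const_mul ε)))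

theorem le_exp_half {t ε : ℝ} (hε : 0 < ε) : t ≤ 2 / ε * Real.exp (ε / 2 * t) := by
  have h := Real.add_one_le_exp (ε / 2 * t)
  rw [div_mul_eq_mul_div, le_div_iff₀ hε]
  linarith

theorem EI.integrable {μ : Measure Y} {ℓ : Y → P →L[ℝ] ℝ} (hℓ : AEStronglyMeasurable ℓ μ)
    {O : Set P} {Q : Y → ℝ} (hQ : EI μ ℓ O Q) {p : P} (hp : p ∈ O) :
    Integrable (fun y => Q y * Real.exp (ℓ y p)) μ := by
  obtain ⟨ε, hε, hi⟩ := hQ.2 p hp
  refine hi.mono (by simpa using aesm_mul_exp hℓ hQ.1 p 0) (Filter.Eventually.of_forall fun y => ?_)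
  simp only [norm_mul, Real.norm_eq_abs, Real.abs_exp]
  gcongr
  exact le_add_of_nonneg_right (by positivity)

/-- Use `t ≤ (2/ε) e^{ε t / 2}`. -/
theorem EI.mul_apply {μ : Measure Y} {ℓ : Y → P →L[ℝ] ℝ} (hℓ : AEStronglyMeasurable ℓ μ)
    {O : Set P} {Q : Y → ℝ} (hQ : EI μ ℓ O Q) (v : P) : EI μ ℓ O fun y => Q y * ℓ y v := by
  have hm := hQ.1.mul (hℓ.apply_continuousLinearMap v)
  refine ⟨hm, fun p hp => ?_⟩
  obtain ⟨ε, hε, hi⟩ := hQ.2 p hp
  refine ⟨ε / 2, by positivity, (hi.norm.const_mul (‖v‖ * (2 / ε))).mono'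
    (aesm_mul_exp hℓ hm p _) (Filter.Eventually.of_forall fun y => ?_)⟩
  simp only [norm_mul, Real.norm_eq_abs, Real.abs_exp]
  have h1 : |ℓ y v| ≤ ‖ℓ y‖ * ‖v‖ := (ℓ y).le_opNorm v
  have h2 := le_exp_half (t := ‖ℓ y‖) hε
  calc |Q y| * |ℓ y v| * Real.exp (ℓ y p + ε / 2 * ‖ℓ y‖)
      ≤ |Q y| * ((2 / ε * Real.exp (ε / 2 * ‖ℓ y‖)) * ‖v‖) * Real.exp (ℓ y p + ε / 2 * ‖ℓ y‖) := by
        gcongr
        exact h1.trans (by gcongr)
    _ = ‖v‖ * (2 / ε) * (|Q y| * (Real.exp (ε / 2 * ‖ℓ y‖) * Real.exp (ℓ y p + ε / 2 * ‖ℓ y‖))) := by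
        ring
    _ = _ := by
        rw [← Real.exp_add]
        congr 3
        ring

/-- `hasFDerivAt_integral_of_dominated_of_fderiv_le` on the ball of radius `ε/2`. -/
theorem EI.fderiv_apply {μ : Measure Y} {ℓ : Y → P →L[ℝ] ℝ} (hℓ : AEStronglyMeasurable ℓ μ)
    {O : Set P} {Q : Y → ℝ} (hQ : EI μ ℓ O Q) {p : P} (hp : p ∈ O) :
    DifferentiableAt ℝ (fun p => ∫ y, Q y * Real.exp (ℓ y p) ∂μ) p ∧
    ∀ v, fderiv ℝ (fun p => ∫ y, Q y * Real.exp (ℓ y p) ∂μ) p v =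
      ∫ y, Q y * ℓ y v * Real.exp (ℓ y p) ∂μ := by
  obtain ⟨ε, hε, hi⟩ := hQ.2 p hp
  have hm : ∀ q, AEStronglyMeasurable (fun y => Q y * Real.exp (ℓ y q)) μ := fun q => by
    simpa using aesm_mul_exp hℓ hQ.1 q 0
  have hb : ∀ y, ∀ q ∈ Metric.ball p (ε / 2), ‖(Q y * Real.exp (ℓ y q)) • ℓ y‖ ≤
      2 / ε * ‖Q y * Real.exp (ℓ y p + ε * ‖ℓ y‖)‖ := by
    intro y q hq
    simp only [norm_smul, norm_mul, Real.norm_eq_abs, Real.abs_exp]
    have h1 : ℓ y q ≤ ℓ y p + ε / 2 * ‖ℓ y‖ := by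
      have h2 : |ℓ y (q - p)| ≤ ‖ℓ y‖ * ‖q - p‖ := (ℓ y).le_opNorm _
      have h3 : ‖q - p‖ ≤ ε / 2 := (mem_ball_iff_norm.1 hq).le
      have h4 := mul_le_mul_of_nonneg_left h3 (norm_nonneg (ℓ y))
      rw [map_sub] at h2
      linarith [le_abs_self (ℓ y q - ℓ y p)]
    have h2 := le_exp_half (t := ‖ℓ y‖) hε
    calc |Q y| * Real.exp (ℓ y q) * ‖ℓ y‖
        ≤ |Q y| * Real.exp (ℓ y p + ε / 2 * ‖ℓ y‖) * (2 / ε * Real.exp (ε / 2 * ‖ℓ y‖)) := by
          gcongr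
      _ = 2 / ε * (|Q y| * (Real.exp (ε / 2 * ‖ℓ y‖) * Real.exp (ℓ y p + ε / 2 * ‖ℓ y‖))) := by
          ring
      _ = _ := by
          rw [← Real.exp_add]
          congr 3
          ring
  have hm' : AEStronglyMeasurable (fun y => (Q y * Real.exp (ℓ y p)) • ℓ y) μ := (hm p).smul hℓ
  have hD := hasFDerivAt_integral_of_dominated_of_fderiv_le (μ := μ)
    (F := fun q y => Q y * Real.exp (ℓ y q)) (F' := fun q y => (Q y * Real.exp (ℓ y q)) • ℓ y)
    (Metric.ball_mem_nhds p (half_pos hε)) (Filter.Eventually.of_forall hm)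
    (hQ.integrable hℓ hp) hm' (Filter.Eventually.of_forall hb) (hi.norm.const_mul _)
    (Filter.Eventually.of_forall fun y q _ => by
      have := ((ℓ y).hasFDerivAt (x := q)).exp.const_mul (Q y)
      rwa [smul_smul] at this)
  refine ⟨hD.differentiableAt, fun v => ?_⟩
  have hI : Integrable (fun y => (Q y * Real.exp (ℓ y p)) • ℓ y) μ :=
    (hi.norm.const_mul _).mono' hm'
      (Filter.Eventually.of_forall fun y => hb y p (Metric.mem_ball_self (half_pos hε)))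
  rw [hD.fderiv, ContinuousLinearMap.integral_apply hI]
  refine integral_congr_ae (Filter.Eventually.of_forall fun y => ?_)
  simp only [ContinuousLinearMap.smul_apply, smul_eq_mul]
  ring

/-- Induction on the order for all `Q` at once (`contDiffOn_succ_iff_fderiv_of_isOpen`,
`contDiffOn_clm_apply`, `contDiffOn_infty`). -/
theorem EI.contDiffOn {μ : Measure Y} {ℓ : Y → P →L[ℝ] ℝ} (hℓ : AEStronglyMeasurable ℓ μ)
    {O : Set P} (hO : IsOpen O) {Q : Y → ℝ} (hQ : EI μ ℓ O Q) :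
    ContDiffOn ℝ ((⊤ : ℕ∞) : WithTop ℕ∞) (fun p => ∫ y, Q y * Real.exp (ℓ y p) ∂μ) O := by
  refine contDiffOn_infty.2 fun n => ?_
  induction n generalizing Q with
  | zero =>
    rw [Nat.cast_zero, contDiffOn_zero]
    exact fun p hp => (hQ.fderiv_apply hℓ hp).1.continuousAt.continuousWithinAt
  | succ n ih =>
    rw [Nat.cast_succ, contDiffOn_succ_iff_fderiv_of_isOpen hO]
    refine ⟨fun p hp => (hQ.fderiv_apply hℓ hp).1.differentiableWithinAt, by simp, ?_⟩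
    refine contDiffOn_clm_apply.2 fun v => ?_
    exact (ih (hQ.mul_apply hℓ v)).congr fun p hp => (hQ.fderiv_apply hℓ hp).2 v

theorem EI.mul_prod {μ : Measure Y} {ℓ : Y → P →L[ℝ] ℝ} (hℓ : AEStronglyMeasurable ℓ μ)
    {O : Set P} {Q : Y → ℝ} (hQ : EI μ ℓ O Q) (m : Multiset P) :
    EI μ ℓ O fun y => Q y * (m.map fun v => ℓ y v).prod := by
  induction m using Multiset.induction_on with
  | empty => simpa using hQ
  | cons v m ih =>
    have := ih.mul_apply hℓ v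
    simp only [Multiset.map_cons, Multiset.prod_cons]
    convert this using 2
    ring

/-- All derivatives in the global case. -/
theorem EI.DM_eq {μ : Measure Y} {ℓ : Y → P →L[ℝ] ℝ} (hℓ : AEStronglyMeasurable ℓ μ)
    {Q : Y → ℝ} (hQ : EI μ ℓ univ Q) (m : Multiset P) (p : P) :
    DM m (fun p => ∫ y, Q y * Real.exp (ℓ y p) ∂μ) p =
      ∫ y, Q y * (m.map fun v => ℓ y v).prod * Real.exp (ℓ y p) ∂μ := by
  have hs : Sm fun p => ∫ y, Q y * Real.exp (ℓ y p) ∂μ :=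
    contDiffOn_univ.1 (hQ.contDiffOn hℓ isOpen_univ)
  induction m using Multiset.induction_on generalizing p with
  | empty => simp
  | cons v m ih =>
    rw [DM_cons hs, funext ih, D1, ((hQ.mul_prod hℓ m).fderiv_apply hℓ (mem_univ p)).2 v]
    refine integral_congr_ae (Filter.Eventually.of_forall fun y => ?_)
    simp only [Multiset.map_cons, Multiset.prod_cons]
    ring

end

end Crest.Agent.R285
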