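import Crest.Agent.R285.Defs

/-! Row 285: calculus of iterated directional derivatives `D1`, `DM` of globally smooth functions. -/

set_option autoImplicit false

namespace Crest.Agent.R285

open MeasureTheory ProbabilityTheory Crest.OracleSampling Set
open scoped ENNReal NNReal InnerProductSpace

section
variable {P Q Y : Type*} [NormedAddCommGroup P] [NormedSpace ℝ P] [NormedAddCommGroup Q]
  [NormedSpace ℝ Q] [NormedAddCommGroup Y] [NormedSpace ℝ Y]

theorem Sm.D1 {f : P → Y} (hf : Sm f) (v : P) : Sm (D1 v f) := by
  exact (hf.fderiv_right (m := ((⊤ : ℕ∞) : WithTop ℕ∞)) le_rfl).clm_apply contDiff_const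

/-- Symmetry of second derivatives (`ContDiffAt.isSymmSndFDerivAt`). -/
theorem D1_comm {f : P → Y} (hf : Sm f) (v w : P) : D1 v (D1 w f) = D1 w (D1 v f) := by
  funext p
  have hd : DifferentiableAt ℝ (fderiv ℝ f) p :=
    (hf.fderiv_right (m := ((⊤ : ℕ∞) : WithTop ℕ∞)) le_rfl).differentiable (by simp) p
  have h := (hf.contDiffAt (x := p)).isSymmSndFDerivAt (by
    rw [minSmoothness_of_isRCLikeNormedField]; exact WithTop.coe_le_coe.2 (le_top (a := 2)))
  unfold D1
  rw [fderiv_clm_apply hd (differentiableAt_const _), fderiv_clm_apply hd (differentiableAt_const _)]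
  simpa using h v w

/-- Derivative of `p ↦ Df(p)(W p)`. -/
theorem D1_fderiv_apply {f : P → Y} {W : P → P} (hf : Sm f) (hW : Sm W) (v : P) (p : P) :
    D1 v (fun p => fderiv ℝ f p (W p)) p =
      fderiv ℝ (D1 v f) p (W p) + fderiv ℝ f p (D1 v W p) := by
  have hd : DifferentiableAt ℝ (fderiv ℝ f) p :=
    (hf.fderiv_right (m := ((⊤ : ℕ∞) : WithTop ℕ∞)) le_rfl).differentiable (by simp) p
  have h := congrFun (D1_comm hf v (W p)) p
  unfold D1 at h ⊢
  rw [fderiv_clm_apply hd (hW.differentiable (by simp) p), ← h,
    fderiv_clm_apply hd (differentiableAt_const _)]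
  simp [add_comm]

@[simp] theorem DM_zero (f : P → ℝ) : DM 0 f = f := by
  simp [DM]

theorem md_sm {f : P → ℝ} (hf : Sm f) (l : List P) : Sm (l.foldr D1 f) := by
  induction l with
  | nil => exact hf
  | cons v l ih => exact ih.D1 v

theorem md_perm {f : P → ℝ} (hf : Sm f) {l l' : List P} (h : l.Perm l') :
    l.foldr D1 f = l'.foldr D1 f := by
  induction h with
  | nil => rfl
  | cons v _ ih => simp only [List.foldr_cons, ih]
  | swap v w l => exact D1_comm (md_sm hf l) w v
  | trans _ _ ih ih' => exact ih.trans ih'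

theorem Sm.DM {f : P → ℝ} (hf : Sm f) (m : Multiset P) : Sm (DM m f) := by
  exact md_sm hf _

/-- Prove first: `l.foldr D1 f` is invariant under `List.Perm` for smooth `f` (induction on the
permutation, `D1_comm`); then `(v ::ₘ m).toList ~ v :: m.toList`. -/
theorem DM_cons {f : P → ℝ} (hf : Sm f) (v : P) (m : Multiset P) :
    DM (v ::ₘ m) f = D1 v (DM m f) := by
  exact md_perm hf (Multiset.coe_eq_coe.1 (by simp [← Multiset.cons_coe]) : (v ::ₘ m).toList.Perm (v :: m.toList))

theorem DM_singleton (f : P → ℝ) (v : P) : DM {v} f = D1 v f := by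
  simp [DM]

theorem DM_add_ms {f : P → ℝ} (hf : Sm f) (m m' : Multiset P) :
    DM (m + m') f = DM m (DM m' f) := by
  induction m using Multiset.induction_on with
  | empty => simp
  | cons v m ih => rw [Multiset.cons_add, DM_cons hf, ih, DM_cons (hf.DM m')]

theorem DM_D1 {f : P → ℝ} (hf : Sm f) (v : P) (m : Multiset P) :
    DM m (D1 v f) = D1 v (DM m f) := by
  rw [← DM_singleton, ← DM_add_ms hf, add_comm, Multiset.singleton_add, DM_cons hf]

theorem DM_add {f g : P → ℝ} (hf : Sm f) (hg : Sm g) (m : Multiset P) :
    DM m (fun p => f p + g p) = fun p => DM m f p + DM m g p := by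
  induction m using Multiset.induction_on with
  | empty => simp
  | cons v m ih =>
    rw [DM_cons (hf.add hg), ih, DM_cons hf, DM_cons hg]
    funext p
    simp only [D1]
    rw [fderiv_fun_add ((hf.DM m).differentiable (by simp) p) ((hg.DM m).differentiable (by simp) p)]
    rfl

theorem DM_const_mul {f : P → ℝ} (hf : Sm f) (c : ℝ) (m : Multiset P) :
    DM m (fun p => c * f p) = fun p => c * DM m f p := by
  induction m using Multiset.induction_on with
  | empty => simp
  | cons v m ih =>
    rw [DM_cons (contDiff_const.mul hf), ih, DM_cons hf]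
    funext p
    simp only [D1]
    rw [fderiv_const_mul ((hf.DM m).differentiable (by simp) p)]
    rfl

theorem DM_sub {f g : P → ℝ} (hf : Sm f) (hg : Sm g) (m : Multiset P) :
    DM m (fun p => f p - g p) = fun p => DM m f p - DM m g p := by
  have := DM_add hf (contDiff_const (c := (-1 : ℝ)).mul hg) m
  rw [DM_const_mul hg] at this
  simpa [sub_eq_add_neg] using this

theorem DM_sum {ι : Type*} (s : Finset ι) {f : ι → P → ℝ} (hf : ∀ i ∈ s, Sm (f i))
    (m : Multiset P) : DM m (fun p => ∑ i ∈ s, f i p) = fun p => ∑ i ∈ s, DM m (f i) p := by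
  classical
  induction s using Finset.induction_on with
  | empty => simpa using DM_const_mul (contDiff_const (c := (0 : ℝ))) 0 m
  | insert i s hi ih =>
    simp only [Finset.sum_insert hi]
    rw [DM_add (hf i (Finset.mem_insert_self _ _))
      (ContDiff.sum fun j hj => hf j (Finset.mem_insert_of_mem hj)),
      ih fun j hj => hf j (Finset.mem_insert_of_mem hj)]

theorem DM_const (c : ℝ) {m : Multiset P} (hm : m ≠ 0) : DM m (fun _ : P => c) = fun _ => 0 := by
  obtain ⟨v, hv⟩ := Multiset.exists_mem_of_ne_zero hm
  obtain ⟨m, rfl⟩ := Multiset.exists_cons_of_mem hv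
  rw [DM_cons contDiff_const, ← DM_D1 contDiff_const]
  have : D1 v (fun _ : P => c) = fun _ => 0 * 0 := by funext p; simp [D1]
  rw [this]
  simpa using DM_const_mul (contDiff_const (c := (0 : ℝ))) 0 m

/-- Leibniz rule (induction on `s`, `Finset.sum_powerset_insert`). -/
theorem DM_mul {ι : Type*} [DecidableEq ι] {f g : P → ℝ} (hf : Sm f) (hg : Sm g) (x : ι → P)
    (s : Finset ι) (p : P) :
    DM (s.val.map x) (fun p => f p * g p) p =
      ∑ t ∈ s.powerset, DM (t.val.map x) f p * DM ((s \ t).val.map x) g p := by
  induction s using Finset.induction_on generalizing p with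
  | empty => simp
  | insert i s hi ih =>
    have hd := fun (f : P → ℝ) (hf : Sm f) (m : Multiset P) => (hf.DM m).differentiable (by simp) p
    rw [Finset.insert_val_of_notMem hi, Multiset.map_cons, DM_cons (hf.mul hg), funext ih,
      Finset.sum_powerset_insert hi, ← Finset.sum_add_distrib, D1,
      fderiv_fun_sum fun t _ => (hd f hf _).fun_mul (hd g hg _), sum_apply]
    refine Finset.sum_congr rfl fun t ht => ?_
    have h1 : i ∉ t := fun h => hi (Finset.mem_powerset.1 ht h)
    rw [fderiv_fun_mul (hd f hf _) (hd g hg _), Finset.insert_sdiff_of_notMem _ h1,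
      Finset.insert_sdiff_insert, Finset.sdiff_insert_of_notMem hi,
      Finset.insert_val_of_notMem h1, Finset.insert_val_of_notMem (by simp [hi]),
      Multiset.map_cons, Multiset.map_cons, DM_cons hf, DM_cons hg]
    simp [D1, mul_comm]

theorem DM_comp_affine {f : P → ℝ} (hf : Sm f) (b : P) (L : Q →L[ℝ] P) (m : Multiset Q) (q : Q) :
    DM m (fun q => f (b + L q)) q = DM (m.map L) f (b + L q) := by
  induction m using Multiset.induction_on generalizing q with
  | empty => simp
  | cons v m ih =>
    rw [DM_cons (f := fun q => f (b + L q)) (hf.comp (contDiff_const.add L.contDiff)), funext ih,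
      Multiset.map_cons, DM_cons hf]
    exact congrArg (fun T : Q →L[ℝ] ℝ => T v) ((((hf.DM (m.map L)).differentiable (by simp) _).hasFDerivAt.comp q
      (L.hasFDerivAt.const_add b)).fderiv)

/-- Locality (no smoothness needed; `Filter.EventuallyEq.fderiv`). -/
theorem DM_congr {f g : P → ℝ} {O : Set P} (hO : IsOpen O) (h : EqOn f g O) (m : Multiset P) :
    EqOn (DM m f) (DM m g) O := by
  unfold DM
  induction m.toList with
  | nil => exact h
  | cons v l ih =>
    intro p hp
    exact congrArg (fun T : P →L[ℝ] ℝ => T v)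
      (Filter.EventuallyEq.fderiv_eq (ih.eventuallyEq_of_mem (hO.mem_nhds hp)))

/-- A multiplier depending only on a linear functional that kills all directions. -/
theorem DM_mul_of_ker {f : P → ℝ} (hf : Sm f) {g : ℝ → ℝ} (hg : Sm g) (L : P →L[ℝ] ℝ)
    (m : Multiset P) (hm : ∀ v ∈ m, L v = 0) :
    DM m (fun p => g (L p) * f p) = fun p => g (L p) * DM m f p := by
  induction m using Multiset.induction_on with
  | empty => simp
  | cons v m ih =>
    have hg' : Sm fun p => g (L p) := hg.comp L.contDiff
    rw [DM_cons (hg'.mul hf), ih fun w hw => hm w (Multiset.mem_cons_of_mem hw), DM_cons hf]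
    funext p
    have h1 : fderiv ℝ (fun p => g (L p)) p v = 0 := by
      rw [show (fun p => g (L p)) = g ∘ L from rfl,
        fderiv_comp p (hg.differentiable (by simp) _) L.differentiableAt]
      simp [hm v (Multiset.mem_cons_self _ _)]
    simp only [D1]
    rw [fderiv_fun_mul (hg'.differentiable (by simp) p) ((hf.DM m).differentiable (by simp) p)]
    simp [h1]

end

end Crest.Agent.R285
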