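import Crest.Agent.R285.Defs

/-! Row 285: kernels with bounded `ℓ²` operator norm. -/

set_option autoImplicit false

namespace Crest.Agent.R285

open MeasureTheory ProbabilityTheory Crest.OracleSampling Set
open scoped ENNReal NNReal InnerProductSpace

section
variable {X Y X' Y' P : Type*} [Fintype X] [Fintype Y] [Fintype X'] [Fintype Y'] [Fintype P]

theorem OpB.mono {C C' : ℝ} {k : X → Y → ℝ} (h : OpB C k) (hC : |C| ≤ C') : OpB C' k := by
  refine fun b => (h b).trans (mul_le_mul_of_nonneg_right ?_ (by positivity))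
  rw [← sq_abs C]
  exact pow_le_pow_left₀ (abs_nonneg C) hC 2

theorem OpB.abs {C : ℝ} {k : X → Y → ℝ} (h : OpB C k) : OpB |C| k := h.mono le_rfl

theorem OpB.bilin {C : ℝ} {k : X → Y → ℝ} (h : OpB C k) (a : X → ℝ) (b : Y → ℝ) :
    (∑ x, ∑ y, a x * k x y * b y) ^ 2 ≤ C ^ 2 * (∑ x, a x ^ 2) * ∑ y, b y ^ 2 := by
  simp only [mul_assoc, ← Finset.mul_sum]
  refine (Finset.sum_mul_sq_le_sq_mul_sq _ _ _).trans ?_
  rw [mul_left_comm]
  exact mul_le_mul_of_nonneg_left (h b) (by positivity)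

/-- Take `a x = ∑ y, k x y * b y`. -/
theorem opB_of_bilin {C : ℝ} {k : X → Y → ℝ} (h : ∀ (a : X → ℝ) (b : Y → ℝ),
    (∑ x, ∑ y, a x * k x y * b y) ^ 2 ≤ C ^ 2 * (∑ x, a x ^ 2) * ∑ y, b y ^ 2) : OpB C k := by
  intro b
  have h1 := h (fun x => ∑ y, k x y * b y) b
  simp only [mul_assoc, ← Finset.mul_sum, ← sq] at h1
  rcases (show 0 ≤ ∑ x, (∑ y, k x y * b y) ^ 2 by positivity).eq_or_lt with h2 | h2
  · rw [← h2]; positivity
  · exact le_of_mul_le_mul_left (by nlinarith) h2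

theorem OpB.transpose {C : ℝ} {k : X → Y → ℝ} (h : OpB C k) : OpB C fun y x => k x y := by
  refine opB_of_bilin fun b a => ?_
  have := h.bilin a b
  rw [Finset.sum_comm, mul_right_comm] at this
  simpa only [mul_comm, mul_left_comm, mul_assoc] using this

theorem OpB.reindex {C : ℝ} {k : X → Y → ℝ} (h : OpB C k) (eX : X' ≃ X) (eY : Y' ≃ Y) :
    OpB C fun x y => k (eX x) (eY y) := by
  intro b
  have := h fun y => b (eY.symm y)
  rw [← eX.sum_comp, ← eY.sum_comp] at this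
  simp only [← eY.sum_comp (fun y => k _ y * b (eY.symm y)), Equiv.symm_apply_apply] at this
  exact this

theorem OpB.add {C C' : ℝ} {k k' : X → Y → ℝ} (h : OpB C k) (h' : OpB C' k') :
    OpB (|C| + |C'|) fun x y => k x y + k' x y := by
  refine opB_of_bilin fun a b => ?_
  have h1 := h.bilin a b
  have h2 := h'.bilin a b
  simp only [mul_add, add_mul, Finset.sum_add_distrib]
  obtain ⟨S, hS0, hS⟩ : ∃ S : ℝ, 0 ≤ S ∧ (∑ x, a x ^ 2) * ∑ y, b y ^ 2 = S ^ 2 :=
    ⟨√_, Real.sqrt_nonneg _, (Real.sq_sqrt (by positivity)).symm⟩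
  rw [mul_assoc, hS, ← sq_abs C, ← mul_pow] at h1
  rw [mul_assoc, hS, ← sq_abs C', ← mul_pow] at h2
  rw [mul_assoc, hS, ← mul_pow, add_mul]
  have h3 := abs_le_of_sq_le_sq h1 (by positivity)
  have h4 := abs_le_of_sq_le_sq h2 (by positivity)
  exact sq_le_sq' (by linarith [neg_le_of_abs_le h3, neg_le_of_abs_le h4])
    (add_le_add (le_of_abs_le h3) (le_of_abs_le h4))

theorem OpB.const_mul {C : ℝ} {k : X → Y → ℝ} (h : OpB C k) (c : ℝ) :
    OpB (c * C) fun x y => c * k x y := by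
  intro b
  simp only [mul_assoc, ← Finset.mul_sum, mul_pow]
  exact mul_le_mul_of_nonneg_left (h b) (sq_nonneg c)

theorem OpB.sum {ι : Type*} (s : Finset ι) {C : ι → ℝ} {k : ι → X → Y → ℝ}
    (h : ∀ i ∈ s, OpB (C i) (k i)) : OpB (∑ i ∈ s, |C i|) fun x y => ∑ i ∈ s, k i x y := by
  classical
  induction s using Finset.induction_on with
  | empty => intro b; simp
  | insert i s hi ih =>
    simp only [Finset.sum_insert hi]
    have := (h i (Finset.mem_insert_self _ _)).add (ih fun j hj => h j (Finset.mem_insert_of_mem hj))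
    rwa [abs_of_nonneg (a := ∑ i ∈ s, |C i|) (by positivity)] at this

theorem OpB.mul_sq_le {C : ℝ} {k : X → Y → ℝ} (h : OpB C k) (S : Y × P → ℝ) :
    ∑ x : X × P, (∑ y, k x.1 y * S (y, x.2)) ^ 2 ≤ C ^ 2 * ∑ y, S y ^ 2 := by
  rw [Fintype.sum_prod_type_right, Fintype.sum_prod_type_right, Finset.mul_sum]
  exact Finset.sum_le_sum fun p _ => h fun y => S (y, p)

/-- Kronecker product (apply `mul_sq_le` twice). -/
theorem OpB.kron {C C' : ℝ} {k : X → Y → ℝ} {k' : X' → Y' → ℝ} (h : OpB C k) (h' : OpB C' k') :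
    OpB (C * C') fun (x : X × X') (y : Y × Y') => k x.1 y.1 * k' x.2 y.2 := by
  intro b
  have h1 := h.mul_sq_le fun z : Y × X' => ∑ y', k' z.2 y' * b (z.1, y')
  have h2 := h'.mul_sq_le fun z : Y' × Y => b (z.2, z.1)
  rw [← (Equiv.prodComm Y X').sum_comp, ← (Equiv.prodComm Y Y').sum_comp] at h2
  have h3 : ∀ x : X × X', ∑ y : Y × Y', k x.1 y.1 * k' x.2 y.2 * b y =
      ∑ y, k x.1 y * ∑ y', k' x.2 y' * b (y, y') := fun x => by
    simp only [Fintype.sum_prod_type, mul_assoc, Finset.mul_sum]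
  simp only [h3]
  rw [mul_pow, mul_assoc]
  exact h1.trans (mul_le_mul_of_nonneg_left h2 (sq_nonneg C))

theorem OpB.hs {C : ℝ} {k : X → Y → ℝ} (h : OpB C k) :
    ∑ x, ∑ y, k x y ^ 2 ≤ C ^ 2 * Fintype.card Y := by
  classical
  rw [Finset.sum_comm, mul_comm, ← nsmul_eq_mul, ← Finset.card_univ, ← Finset.sum_const]
  refine Finset.sum_le_sum fun y _ => ?_
  simpa [Pi.single_apply] using h (Pi.single y 1)

theorem OpB.entry_le {C : ℝ} {k : X → Y → ℝ} (h : OpB C k) (x : X) (y : Y) : |k x y| ≤ |C| := by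
  classical
  have h1 : ∑ x, k x y ^ 2 ≤ C ^ 2 := by simpa [Pi.single_apply] using h (Pi.single y 1)
  exact sq_le_sq.1 ((Finset.single_le_sum (f := fun x => k x y ^ 2) (fun _ _ => sq_nonneg _)
    (Finset.mem_univ x)).trans h1)

theorem opb_cs {Ω : Type*} [MeasurableSpace Ω] {μ : Measure Ω} {f g : Ω → ℝ} (hf : MemLp f 2 μ)
    (hg : MemLp g 2 μ) : (∫ ω, f ω * g ω ∂μ) ^ 2 ≤ (∫ ω, f ω ^ 2 ∂μ) * ∫ ω, g ω ^ 2 ∂μ := by
  have := discrim_le_zero (a := ∫ ω, f ω ^ 2 ∂μ) (b := 2 * ∫ ω, f ω * g ω ∂μ)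
    (c := ∫ ω, g ω ^ 2 ∂μ) fun t => by
      have h1 : Integrable (fun ω => f ω ^ 2 * (t * t)) μ := hf.integrable_sq.mul_const _
      have h2 : Integrable (fun ω => 2 * (f ω * g ω) * t) μ :=
        ((hf.integrable_mul hg).const_mul _).mul_const _
      rw [← integral_mul_const, ← integral_const_mul, ← integral_mul_const, ← integral_add h1 h2,
        ← integral_add (f := fun ω => f ω ^ 2 * (t * t) + 2 * (f ω * g ω) * t) (h1.add h2)
          hg.integrable_sq]
      exact integral_nonneg fun ω => by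
        simp only [Pi.zero_apply]; nlinarith [sq_nonneg (f ω * t + g ω)]
  rw [discrim] at this
  linarith

/-- Gram kernels of `L²`-bounded families (Cauchy–Schwarz). -/
theorem opB_integral {Ω : Type*} [MeasurableSpace Ω] {μ : Measure Ω} {ψ : X → Ω → ℝ}
    {χ : Y → Ω → ℝ} (hψ : ∀ x, MemLp (ψ x) 2 μ) (hχ : ∀ y, MemLp (χ y) 2 μ) {C C' : ℝ}
    (h : ∀ a : X → ℝ, ∫ ω, (∑ x, a x * ψ x ω) ^ 2 ∂μ ≤ C ^ 2 * ∑ x, a x ^ 2)
    (h' : ∀ b : Y → ℝ, ∫ ω, (∑ y, b y * χ y ω) ^ 2 ∂μ ≤ C' ^ 2 * ∑ y, b y ^ 2) :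
    OpB (C * C') fun x y => ∫ ω, ψ x ω * χ y ω ∂μ := by
  refine opB_of_bilin fun a b => ?_
  have h1 : MemLp (fun ω => ∑ x, a x * ψ x ω) 2 μ :=
    memLp_finsetSum _ fun x _ => (hψ x).const_mul _
  have h2 : MemLp (fun ω => ∑ y, b y * χ y ω) 2 μ :=
    memLp_finsetSum _ fun y _ => (hχ y).const_mul _
  have hi : ∀ x y, Integrable (fun ω => a x * (ψ x ω * χ y ω) * b y) μ := fun x y =>
    (((hψ x).integrable_mul (hχ y)).const_mul _).mul_const _
  have h3 : ∑ x, ∑ y, a x * (∫ ω, ψ x ω * χ y ω ∂μ) * b y =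
      ∫ ω, (∑ x, a x * ψ x ω) * ∑ y, b y * χ y ω ∂μ := by
    simp only [← integral_const_mul, ← integral_mul_const]
    rw [Finset.sum_congr rfl fun x _ => (integral_finsetSum _ fun y _ => hi x y).symm,
      ← integral_finsetSum _ fun x _ => integrable_finsetSum _ fun y _ => hi x y]
    refine integral_congr_ae (.of_forall fun ω => ?_)
    simp only [Finset.sum_mul_sum]
    exact Finset.sum_congr rfl fun x _ => Finset.sum_congr rfl fun y _ => by ring
  rw [h3]
  refine (opb_cs h1 h2).trans ((mul_le_mul (h a) (h' b) (integral_nonneg fun _ => sq_nonneg _)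
    (by positivity)).trans_eq (by ring))

end

section ms
variable {ι κ α : Type*} [Fintype ι] [Fintype κ]

theorem ms_comp_equiv (e : κ ≃ ι) (x : ι → α) : ms (x ∘ e) = ms x := by
  rw [ms, ms, ← Multiset.map_map, Multiset.map_univ_val_equiv]

theorem ms_sum_elim (x : ι → α) (y : κ → α) : ms (Sum.elim x y) = ms x + ms y := by
  simp [ms, ← Finset.univ_disjSum_univ, Finset.val_disjSum, Multiset.disjSum]

theorem ms_option (x : Option ι → α) : ms x = x none ::ₘ ms fun i => x (some i) := by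
  simp [ms, univ_option, Finset.insertNone]

theorem ms_unique [Unique ι] (x : ι → α) : ms x = {x default} := by
  simp [ms]

theorem ms_subtype [DecidableEq ι] (x : ι → α) (t : Finset ι) :
    ms (fun i : {i // i ∈ t} => x i) = t.val.map x := by
  rw [ms, Finset.univ_eq_attach, Finset.attach_val, ← Multiset.attach_map_val' t.val x]
  rfl

theorem ms_subtype_compl [DecidableEq ι] (x : ι → α) (t : Finset ι) :
    ms (fun i : {i // ¬ i ∈ t} => x i) = tᶜ.val.map x := by
  rw [← ms_subtype x tᶜ]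
  exact ms_comp_equiv (Equiv.subtypeEquivRight fun i => (Finset.mem_compl).symm)
    fun i : {i // i ∈ tᶜ} => x i

theorem ms_erase [DecidableEq ι] (x : ι → α) (i : ι) :
    ms x = x i ::ₘ ms fun j : {j // j ≠ i} => x j := by
  rw [← ms_comp_equiv (Equiv.optionSubtypeNe i) x, ms_option]
  simp

theorem exists_ms (m : Multiset α) : ∃ (n : ℕ) (x : Fin n → α), ms x = m := by
  induction m using Quotient.inductionOn with
  | _ l => exact ⟨l.length, l.get, by simp [ms]⟩

theorem ms_ne_zero [Nonempty ι] (x : ι → α) : ms x ≠ 0 := by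
  simp [ms, Finset.univ_nonempty.ne_empty]

end ms

end Crest.Agent.R285
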