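import Crest.Agent.R285.TG

/-! Row 285: Lipschitz and displacement bounds for the collocation schemes (abstract field `G`). -/

set_option autoImplicit false

namespace Crest.Agent.R285

open MeasureTheory ProbabilityTheory Crest.OracleSampling Set
open scoped ENNReal NNReal InnerProductSpace

variable {d K : ℕ} {τ R : ℝ}

theorem norm_node_le {θ e : Th} (he : ‖e‖ ≤ 1) (hτ : 0 ≤ τ) {i : ℕ} (hi : i ≤ K) :
    ‖θ + ((i : ℝ) * τ) • e‖ ≤ ‖θ‖ + K * τ := by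
  have h1 : (i : ℝ) ≤ K := by exact_mod_cast hi
  refine (norm_add_le _ _).trans (add_le_add le_rfl ?_)
  rw [norm_smul, Real.norm_of_nonneg (by positivity)]
  calc (i : ℝ) * τ * ‖e‖ ≤ K * τ * 1 := by gcongr
    _ = _ := mul_one _

theorem norm_wsum_le {Y : Type*} [NormedAddCommGroup Y] [NormedSpace ℝ Y] {c : ℕ → ℝ} {C B : ℝ}
    (hc : ∑ i ∈ Finset.range (K + 1), |c i| ≤ C) (hB : 0 ≤ B) {y : ℕ → Y}
    (hy : ∀ i ≤ K, ‖y i‖ ≤ B) (a : ℝ) :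
    ‖a • ∑ i ∈ Finset.range (K + 1), c i • y i‖ ≤ |a| * (C * B) := by
  rw [norm_smul, Real.norm_eq_abs]
  refine mul_le_mul_of_nonneg_left ((norm_sum_le _ _).trans ?_) (abs_nonneg a)
  refine le_trans ?_ (mul_le_mul_of_nonneg_right hc hB)
  rw [Finset.sum_mul]
  refine Finset.sum_le_sum fun i hi => ?_
  rw [norm_smul, Real.norm_eq_abs]
  exact mul_le_mul_of_nonneg_left (hy i (Nat.lt_succ_iff.1 (Finset.mem_range.1 hi))) (abs_nonneg _)

theorem lip_wsum {X Y : Type*} [NormedAddCommGroup X] [NormedAddCommGroup Y] [NormedSpace ℝ Y]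
    {c : ℕ → ℝ} {C L : ℝ} (hc : ∑ i ∈ Finset.range (K + 1), |c i| ≤ C) (hL : 0 ≤ L)
    {f : ℕ → X → Y} (hf : ∀ i ≤ K, Lip L (f i)) (a : ℝ) :
    Lip (|a| * (C * L)) fun x => a • ∑ i ∈ Finset.range (K + 1), c i • f i x := fun x y => by
  have := norm_wsum_le hc (B := L * ‖x - y‖) (by positivity) (fun i hi => hf i hi x y) a
  simp only [smul_sub, Finset.sum_sub_distrib] at this
  exact this.trans_eq (by ring)

section Pic
variable {W : Th → Om d → Om d} {e θ : Th} {LW : ℝ}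

/-- Induction on `n` (for all `j ≤ K`), `sum_qw_le`. -/
theorem pic_lip (hτ : 0 ≤ τ) (he : ‖e‖ ≤ 1) (hR : ‖θ‖ + K * τ ≤ R) (hLW : 0 ≤ LW)
    (hW : ∀ θ', ‖θ'‖ ≤ R → Lip LW (W θ')) (hs : τ * LW * Cq K ≤ 1 / 2) (n : ℕ) {j : ℕ}
    (hj : j ≤ K) : Lip 2 (Pic K τ W e n j θ) ∧ Lip 1 fun ω => Pic K τ W e n j θ ω - ω := by
  induction n generalizing j with
  | zero => exact ⟨lip_id.mono one_le_two, fun x y => by simp [Pic]⟩
  | succ n ih =>
    have h1 : Lip 1 fun ω => τ • ∑ i ∈ Finset.range (K + 1),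
        qw K j i • W (θ + ((i : ℝ) * τ) • e) (Pic K τ W e n i θ ω) := by
      refine (lip_wsum (sum_qw_le K hj) (L := LW * 2) (by positivity) (fun i hi =>
        (hW _ ((norm_node_le he hτ hi).trans hR)).comp (ih hi).1 hLW) τ).mono ?_
      rw [abs_of_nonneg hτ]; linarith
    refine ⟨(lip_id.add h1).mono (by norm_num), fun x y => ?_⟩
    simpa only [Pic, add_sub_cancel_left] using h1 x y

theorem pic_disp (hτ : 0 ≤ τ) (he : ‖e‖ ≤ 1) (hR : ‖θ‖ + K * τ ≤ R) (hLW : 0 ≤ LW)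
    (hW : ∀ θ', ‖θ'‖ ≤ R → Lip LW (W θ')) (hs : τ * LW * Cq K ≤ 1 / 2) {ω : Om d} {B : ℝ}
    (hB : ∀ θ', ‖θ'‖ ≤ R → ‖W θ' ω‖ ≤ B) (n : ℕ) {j : ℕ} (hj : j ≤ K) :
    ‖Pic K τ W e n j θ ω - ω‖ ≤ 2 * τ * Cq K * B := by
  have hB0 : 0 ≤ B := (norm_nonneg _).trans (hB θ (le_trans (le_add_of_nonneg_right (by positivity)) hR))
  have hC := one_le_Cq K
  induction n generalizing j with
  | zero => simp only [Pic, sub_self, norm_zero]; positivity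
  | succ n ih =>
    simp only [Pic, add_sub_cancel_left]
    refine (norm_wsum_le (sum_qw_le K hj) (B := 2 * B) (by positivity) (fun i hi => ?_) τ).trans_eq ?_
    · have hn := (norm_node_le he hτ hi).trans hR
      have h1 := (hW _ hn).norm_le (Pic K τ W e n i θ ω) ω
      have h2 := mul_le_mul_of_nonneg_left (ih hi) hLW
      have h3 := mul_le_mul_of_nonneg_right hs hB0
      have h4 := hB _ hn
      linarith
    · rw [abs_of_nonneg hτ]; ring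

theorem dif_lip {G : Th → Om d → E d} {Lg : ℝ} (hτ : 0 < τ) (he : ‖e‖ ≤ 1)
    (hR : ‖θ‖ + K * τ ≤ R) (hLW : 0 ≤ LW) (hW : ∀ θ', ‖θ'‖ ≤ R → Lip LW (W θ'))
    (hs : τ * LW * Cq K ≤ 1 / 2) (hLg : 0 ≤ Lg) (hG : ∀ θ', ‖θ'‖ ≤ R → Lip Lg (G θ')) (n : ℕ) :
    Lip (2 * Cq K * Lg / τ) (Dif K τ n G W e θ) := by
  refine (lip_wsum (sum_qc_le K) (L := Lg * 2) (by positivity) (fun i hi =>
    (hG _ ((norm_node_le he hτ.le hi).trans hR)).comp
      (pic_lip hτ.le he hR hLW hW hs n hi).1 hLg) τ⁻¹).mono (le_of_eq ?_)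
  rw [abs_of_pos (inv_pos.2 hτ)]; ring

end Pic

theorem W0_aux {h : ℝ} {e : Th} (hh : 0 ≤ h) (he : ‖e‖ ≤ 1) (y : E d) :
    ‖(fun k => -(h * e k) • y : Om d)‖ ≤ h * ‖y‖ := by
  refine (pi_norm_le_iff_of_nonneg (by positivity)).2 fun k => ?_
  have h1 : ‖e k‖ ≤ 1 := (norm_le_pi_norm e k).trans he
  rw [norm_smul, norm_neg, norm_mul, Real.norm_of_nonneg hh]
  calc h * ‖e k‖ * ‖y‖ ≤ h * 1 * ‖y‖ := by gcongr
    _ = _ := by ring

theorem W0_lip {G : Th → Om d → E d} {Lg h : ℝ} {e θ : Th} (hh : 0 ≤ h) (he : ‖e‖ ≤ 1)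
    (hLg : 0 ≤ Lg) (hG : Lip Lg (G θ)) : Lip (h * Lg) (W0 h G e θ) := by
  intro x y
  have h1 := W0_aux (e := e) hh he (G θ x - G θ y)
  have h2 : W0 h G e θ x - W0 h G e θ y = fun k => -(h * e k) • (G θ x - G θ y) := by
    funext k; simp only [W0, Pi.sub_apply, smul_sub]
  rw [h2, mul_assoc]
  exact h1.trans (mul_le_mul_of_nonneg_left (hG x y) hh)

theorem W0_norm_le {G : Th → Om d → E d} {h : ℝ} {e θ : Th} (hh : 0 ≤ h) (he : ‖e‖ ≤ 1)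
    (ω : Om d) : ‖W0 h G e θ ω‖ ≤ h * ‖G θ ω‖ := by
  exact W0_aux hh he _

/-- The standing assumptions on a scheme. -/
structure Sch {d : ℕ} (K : ℕ) (τ h κb Lg R : ℝ) (G : Th → Om d → E d) : Prop where
  τpos : 0 < τ
  τle : τ ≤ 1
  hnn : 0 ≤ h
  hle : h ≤ κb
  Lge : 1 ≤ Lg
  small : 20 * Cq K ^ 2 * Lg * κb ≤ 1
  lip : ∀ θ, ‖θ‖ ≤ R → Lip Lg (G θ)

section Sch
variable {h κb Lg : ℝ} {G : Th → Om d → E d} {θ : Th}

theorem Sch.mono (H : Sch K τ h κb Lg R G) {R' : ℝ} (hR : R' ≤ R) : Sch K τ h κb Lg R' G :=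
  { H with lip := fun θ hθ => H.lip θ (hθ.trans hR) }

theorem Sch.nn (H : Sch K τ h κb Lg R G) : 0 ≤ Cq K ^ 2 * Lg * κb :=
  mul_nonneg (mul_nonneg (sq_nonneg _) (zero_le_one.trans H.Lge)) (H.hnn.trans H.hle)

theorem Sch.key (H : Sch K τ h κb Lg R G) : 20 * (Cq K * Lg * κb) ≤ 1 := by
  have hC := one_le_Cq K
  have h1 : 0 ≤ Lg * κb := mul_nonneg (zero_le_one.trans H.Lge) (H.hnn.trans H.hle)
  have h2 : Cq K * (Lg * κb) ≤ Cq K ^ 2 * (Lg * κb) := by gcongr; nlinarith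
  have h3 := H.small
  linarith

theorem Sch.G_le (H : Sch K τ h κb Lg R G) {ω₀ ω : Om d} {Gb : ℝ}
    (hb : ∀ θ', ‖θ'‖ ≤ R → ‖G θ' ω₀‖ ≤ Gb) (hω : ‖ω - ω₀‖ ≤ 2 * Gb) (hθ : ‖θ‖ ≤ R) :
    ‖G θ ω‖ ≤ 3 * Lg * Gb := by
  have hG : 0 ≤ Gb := by linarith [norm_nonneg (ω - ω₀)]
  have h1 := (H.lip θ hθ).norm_le ω ω₀
  have h2 := mul_le_mul_of_nonneg_left hω (zero_le_one.trans H.Lge)
  have h3 := hb θ hθ
  have h4 := mul_le_mul_of_nonneg_right H.Lge hG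
  linarith

theorem Sch.small0 (H : Sch K τ h κb Lg R G) : τ * (h * Lg) * Cq K ≤ 1 / 2 := by
  have := H.key
  have hC := one_le_Cq K
  have h1 := H.τpos
  have h2 := H.τle
  have h3 := H.hnn
  have h4 := H.hle
  have h5 := H.Lge
  calc τ * (h * Lg) * Cq K ≤ 1 * (κb * Lg) * Cq K := by gcongr
    _ ≤ _ := by linarith

theorem Sch.small1 (H : Sch K τ h κb Lg R G) :
    τ * (3 * Cq K * Lg * κb / τ) * Cq K ≤ 1 / 2 := by
  have h1 := H.τpos.ne'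
  have h2 := H.small
  have h3 : τ * (3 * Cq K * Lg * κb / τ) * Cq K = 3 * (Cq K ^ 2 * Lg * κb) := by field_simp
  have h4 := H.nn
  rw [h3]; linarith

theorem Sch.ah_lip (H : Sch K τ h κb Lg R G) (hR : ‖θ‖ + K * τ ≤ R) (n : ℕ) (k : Fin 2) :
    Lip (2 * Cq K * Lg / τ) (ah K τ n h G k θ) := by
  have hL : 0 ≤ Lg := zero_le_one.trans H.Lge
  exact dif_lip H.τpos (norm_eu k).le hR (mul_nonneg H.hnn hL)
    (fun θ' h' => W0_lip H.hnn (norm_eu k).le hL (H.lip θ' h')) H.small0 hL H.lip n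

theorem Sch.W1_lip (H : Sch K τ h κb Lg R G) (hR : ‖θ‖ + K * τ ≤ R) (n : ℕ) {e : Th}
    (he : ‖e‖ ≤ 1) {κ : ℝ} (hκ : |κ| ≤ κb) :
    Lip (3 * Cq K * Lg * κb / τ) (W1 K τ n h G e κ θ) := by
  have hL : 0 ≤ Lg := zero_le_one.trans H.Lge
  have hτ := H.τpos
  have hC := one_le_Cq K
  have hκb : 0 ≤ κb := H.hnn.trans H.hle
  have h0 := W0_lip (e := e) H.hnn he hL
    (H.lip θ (le_trans (le_add_of_nonneg_right (by positivity)) hR))
  have h1 : Lip (2 * Cq K * Lg / τ) fun ω =>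
      (![ah K τ n h G 1 θ ω, -ah K τ n h G 0 θ ω] : Om d) := fun x y => by
    refine (pi_norm_le_iff_of_nonneg (by positivity)).2 fun k => ?_
    fin_cases k
    · simpa using H.ah_lip hR n 1 x y
    · have := H.ah_lip hR n 0 x y
      rw [norm_sub_rev] at this
      simpa [neg_add_eq_sub] using this
  refine (h0.add (h1.smul κ)).mono ?_
  have h2 : h * Lg ≤ Cq K * Lg * κb / τ := by
    rw [le_div_iff₀ hτ]
    have := H.hle
    have := H.τle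
    have := H.hnn
    calc h * Lg * τ ≤ κb * Lg * Cq K := by gcongr; linarith
      _ = _ := by ring
  have h3 : |κ| * (2 * Cq K * Lg / τ) ≤ κb * (2 * Cq K * Lg / τ) := by gcongr
  have h4 : 3 * Cq K * Lg * κb / τ = Cq K * Lg * κb / τ + κb * (2 * Cq K * Lg / τ) := by ring
  linarith

theorem Sch.Ch_lip (H : Sch K τ h κb Lg R G) (hR : ‖θ‖ + 2 * (K * τ) ≤ R) (n : ℕ) {κ' : ℝ}
    (hκ : 0 < κ') (hκ' : κ' ≤ κb) : Lip (4 * Cq K * Lg / (κ' * τ)) (Ch K τ n h G κ' θ) := by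
  have hL : 0 ≤ Lg := zero_le_one.trans H.Lge
  have hτ := H.τpos
  have hC := one_le_Cq K
  have hK : 0 ≤ K * τ := by positivity
  have hκb : 0 ≤ κb := H.hnn.trans H.hle
  have h1 := dif_lip (R := R - K * τ) (θ := θ) (W := W1 K τ n h G (eu 0) κ') (G := G) hτ
    (norm_eu 0).le (by linarith) (by positivity)
    (fun θ' h' => H.W1_lip (by linarith) n (norm_eu 0).le (by rwa [abs_of_pos hκ])) H.small1 hL
    (fun θ' h' => H.lip θ' (by linarith)) n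
  refine ((h1.sub (H.ah_lip (by linarith) n 0)).smul κ'⁻¹).mono (le_of_eq ?_)
  rw [abs_of_pos (inv_pos.2 hκ)]
  field_simp
  ring

/-- Note `‖(K τ) • eu 0 + (i τ) • (-eu 0)‖ ≤ K τ` for `i ≤ K`; apply `pic_lip` with `R = 2 K τ`. -/
theorem Sch.Corr_lip (H : Sch K τ h κb Lg R G) (hR : 3 * (K * τ) ≤ R) (n : ℕ) {κ κ' : ℝ}
    (hκ : |κ| ≤ κb) (hκ0 : 0 < κ') (hκ' : κ' ≤ κb) :
    Lip (8 * Cq K ^ 2 * Lg * (κ ^ 2 / κ')) (Corr K τ n h G κ κ') := by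
  have hL : 0 ≤ Lg := zero_le_one.trans H.Lge
  have hτ := H.τpos
  have hC := one_le_Cq K
  have hK : 0 ≤ K * τ := by positivity
  have hκb : 0 ≤ κb := H.hnn.trans H.hle
  have he : ‖-eu 0‖ ≤ 1 := by rw [norm_neg, norm_eu]
  have h0 : ‖((K : ℝ) * τ) • eu 0‖ = K * τ := by
    rw [norm_smul, norm_eu, mul_one, Real.norm_of_nonneg hK]
  have hn : ∀ i ≤ K, ‖((K : ℝ) * τ) • eu 0 + ((i : ℝ) * τ) • (-eu 0)‖ ≤ K * τ := fun i hi => by
    have h1 : (i : ℝ) ≤ K := by exact_mod_cast hi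
    have h2 : (i : ℝ) * τ ≤ K * τ := by gcongr
    have h3 : 0 ≤ (i : ℝ) * τ := by positivity
    rw [smul_neg, ← sub_eq_add_neg, ← sub_smul, norm_smul, norm_eu, mul_one,
      Real.norm_of_nonneg (by linarith)]
    linarith
  refine (lip_wsum (sum_qw_le K le_rfl) (L := 4 * Cq K * Lg / (κ' * τ) * 2) (by positivity)
    (fun i hi => (H.Ch_lip (by linarith [hn i hi]) n hκ0 hκ').comp
      (pic_lip (R := 2 * (K * τ)) hτ.le he (by linarith) (by positivity)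
        (fun θ' h' => H.W1_lip (by linarith) n he (by rwa [abs_neg])) H.small1 n hi).1
      (by positivity)) (κ ^ 2 * τ)).mono (le_of_eq ?_)
  rw [abs_of_nonneg (by positivity)]
  field_simp
  ring

theorem Sch.Smp_lip (H : Sch K τ h κb Lg R G) (hR : K * τ ≤ R) (n : ℕ) :
    Lip 2 (Smp K τ n h G) ∧ Lip 1 fun ω => Smp K τ n h G ω - ω 0 := by
  have hL : 0 ≤ Lg := zero_le_one.trans H.Lge
  obtain ⟨h1, h2⟩ := pic_lip (θ := 0) H.τpos.le (norm_eu 0).le (by simpa using hR)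
    (mul_nonneg H.hnn hL) (fun θ' h' => W0_lip H.hnn (norm_eu 0).le hL (H.lip θ' h')) H.small0 n
    (le_refl K)
  exact ⟨fun x y => (norm_le_pi_norm (_ - _) 0).trans (h1 x y),
    fun x y => (norm_le_pi_norm (_ - _) 0).trans (h2 x y)⟩

/-- Displacement of the scheme for `W0` from a point within `2 Gb` of `ω₀`: there
`‖G θ' ω‖ ≤ 3 Lg Gb`. -/
theorem Sch.disp0 (H : Sch K τ h κb Lg R G) (hR : ‖θ‖ + K * τ ≤ R) {ω₀ ω : Om d} {Gb : ℝ}
    (hb : ∀ θ', ‖θ'‖ ≤ R → ‖G θ' ω₀‖ ≤ Gb) (hω : ‖ω - ω₀‖ ≤ 2 * Gb) {e : Th} (he : ‖e‖ ≤ 1)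
    (n : ℕ) {j : ℕ} (hj : j ≤ K) : ‖Pic K τ (W0 h G e) e n j θ ω - ω‖ ≤ Gb := by
  have hL : 0 ≤ Lg := zero_le_one.trans H.Lge
  have hτ := H.τpos
  have hC := one_le_Cq K
  have hG : 0 ≤ Gb := by linarith [norm_nonneg (ω - ω₀)]
  have h1 := pic_disp hτ.le he hR (mul_nonneg H.hnn hL)
    (fun θ' h' => W0_lip H.hnn he hL (H.lip θ' h')) H.small0 (ω := ω) (B := h * (3 * Lg * Gb))
    (fun θ' h' => (W0_norm_le H.hnn he ω).trans
      (mul_le_mul_of_nonneg_left (H.G_le hb hω h') H.hnn)) n hj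
  refine h1.trans ?_
  have h2 := H.τle
  have h3 := H.hnn
  have h4 := H.hle
  have h5 := mul_le_mul_of_nonneg_right H.key hG
  calc 2 * τ * Cq K * (h * (3 * Lg * Gb)) ≤ 2 * 1 * Cq K * (κb * (3 * Lg * Gb)) := by gcongr
    _ ≤ _ := by linarith

/-- Displacement of the scheme for `W1`: with `B = 3 Lg Gb`, `‖ah‖ ≤ 2 Cq B / τ`,
`‖W1‖ ≤ 3 Cq κb B / τ`. -/
theorem Sch.disp1 (H : Sch K τ h κb Lg R G) (hR : ‖θ‖ + 2 * (K * τ) ≤ R) {ω₀ ω : Om d} {Gb : ℝ}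
    (hb : ∀ θ', ‖θ'‖ ≤ R → ‖G θ' ω₀‖ ≤ Gb) (hω : ‖ω - ω₀‖ ≤ 2 * Gb) {e : Th} (he : ‖e‖ ≤ 1)
    {κ : ℝ} (hκ : |κ| ≤ κb) (n n' : ℕ) {j : ℕ} (hj : j ≤ K) :
    ‖Pic K τ (W1 K τ n h G e κ) e n' j θ ω - ω‖ ≤ Gb := by
  have hL : 0 ≤ Lg := zero_le_one.trans H.Lge
  have hτ := H.τpos
  have hC := one_le_Cq K
  have hK : 0 ≤ K * τ := by positivity
  have hκb : 0 ≤ κb := H.hnn.trans H.hle
  have hG : 0 ≤ Gb := by linarith [norm_nonneg (ω - ω₀)]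
  have ha : ∀ θ', ‖θ'‖ ≤ R - K * τ → ∀ k, ‖ah K τ n h G k θ' ω‖ ≤ 2 * Cq K * (3 * Lg * Gb) / τ := by
    intro θ' h' k
    refine (norm_wsum_le (sum_qc_le K) (B := 2 * (3 * Lg * Gb)) (by positivity) (fun i hi => ?_)
      τ⁻¹).trans_eq ?_
    · have hn : ‖θ' + ((i : ℝ) * τ) • eu k‖ ≤ R :=
        (norm_node_le (norm_eu k).le hτ.le hi).trans (by linarith)
      have h1 := (H.lip _ hn).norm_le (Pic K τ (W0 h G (eu k)) (eu k) n i θ' ω) ω
      have h2 := mul_le_mul_of_nonneg_left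
        (H.disp0 (θ := θ') (by linarith) hb hω (norm_eu k).le n hi) hL
      have h3 := H.G_le hb hω hn
      have h4 := mul_nonneg hL hG
      linarith
    · rw [abs_of_pos (inv_pos.2 hτ)]; ring
  have h1 := pic_disp (R := R - K * τ) (θ := θ) (W := W1 K τ n h G e κ) hτ.le he (by linarith)
    (by positivity) (fun θ' h' => H.W1_lip (by linarith) n he hκ) H.small1 (ω := ω)
    (B := 3 * Cq K * κb * (3 * Lg * Gb) / τ) (fun θ' h' => ?_) n' hj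
  · refine h1.trans ?_
    have h2 : 2 * τ * Cq K * (3 * Cq K * κb * (3 * Lg * Gb) / τ) =
        18 * (Cq K ^ 2 * Lg * κb * Gb) := by field_simp; ring
    have h3 := mul_le_mul_of_nonneg_right H.small hG
    have h4 := mul_nonneg H.nn hG
    rw [h2]; linarith
  · have h2 : ‖(![ah K τ n h G 1 θ' ω, -ah K τ n h G 0 θ' ω] : Om d)‖ ≤
        2 * Cq K * (3 * Lg * Gb) / τ := by
      refine (pi_norm_le_iff_of_nonneg (by positivity)).2 fun k => ?_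
      fin_cases k
      · simpa using ha θ' h' 1
      · simpa using ha θ' h' 0
    have h3 := (W0_norm_le (G := G) (θ := θ') H.hnn he ω).trans
      (mul_le_mul_of_nonneg_left (H.G_le hb hω (by linarith)) H.hnn)
    have h4 : h * (3 * Lg * Gb) ≤ Cq K * κb * (3 * Lg * Gb) / τ := by
      rw [le_div_iff₀ hτ]
      have := H.hle
      have := H.τle
      have := H.hnn
      calc h * (3 * Lg * Gb) * τ ≤ κb * (3 * Lg * Gb) * Cq K := by gcongr; linarith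
        _ = _ := by ring
    have h5 : ‖κ • (![ah K τ n h G 1 θ' ω, -ah K τ n h G 0 θ' ω] : Om d)‖ ≤
        κb * (2 * Cq K * (3 * Lg * Gb) / τ) := by
      rw [norm_smul, Real.norm_eq_abs]; gcongr
    have h6 : 3 * Cq K * κb * (3 * Lg * Gb) / τ =
        Cq K * κb * (3 * Lg * Gb) / τ + κb * (2 * Cq K * (3 * Lg * Gb) / τ) := by ring
    refine (norm_add_le _ _).trans ?_
    linarith

end Sch

end Crest.Agent.R285
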