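import Crest.Agent.R285.MD

/-! Row 285: API for `Lip`, `TG` (temperate growth), `PG1`, the cutoff `psi`, and smoothing of
Lipschitz functions. -/

set_option autoImplicit false

namespace Crest.Agent.R285

open MeasureTheory ProbabilityTheory Crest.OracleSampling Set
open scoped ENNReal NNReal InnerProductSpace

section Lip
variable {X Y W : Type*} [NormedAddCommGroup X] [NormedAddCommGroup Y] [NormedAddCommGroup W]

theorem Lip.mono {L L' : ℝ} {f : X → Y} (hf : Lip L f) (h : L ≤ L') : Lip L' f :=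
  fun x y => (hf x y).trans (by gcongr)

theorem Lip.continuous {L : ℝ} {f : X → Y} (hf : Lip L f) : Continuous f := by
  have : LipschitzWith (Real.toNNReal L) f := LipschitzWith.of_dist_le_mul fun x y => by
    rw [dist_eq_norm, dist_eq_norm]
    exact (hf x y).trans (by gcongr; exact Real.le_coe_toNNReal L)
  exact this.continuous

theorem Lip.comp {L L' : ℝ} {f : Y → W} {g : X → Y} (hf : Lip L f) (hg : Lip L' g) (hL : 0 ≤ L) :
    Lip (L * L') fun x => f (g x) := fun x y =>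
  (hf _ _).trans (by rw [mul_assoc]; exact mul_le_mul_of_nonneg_left (hg x y) hL)

theorem Lip.add {L L' : ℝ} {f g : X → Y} (hf : Lip L f) (hg : Lip L' g) :
    Lip (L + L') fun x => f x + g x := fun x y => by
  rw [add_sub_add_comm, add_mul]
  exact (norm_add_le _ _).trans (add_le_add (hf x y) (hg x y))

theorem Lip.sub {L L' : ℝ} {f g : X → Y} (hf : Lip L f) (hg : Lip L' g) :
    Lip (L + L') fun x => f x - g x := fun x y => by
  rw [sub_sub_sub_comm, add_mul]
  exact (norm_sub_le _ _).trans (add_le_add (hf x y) (hg x y))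

theorem Lip.smul [NormedSpace ℝ Y] {L : ℝ} {f : X → Y} (hf : Lip L f) (c : ℝ) :
    Lip (|c| * L) fun x => c • f x := fun x y => by
  rw [← smul_sub, norm_smul, Real.norm_eq_abs, mul_assoc]
  exact mul_le_mul_of_nonneg_left (hf x y) (abs_nonneg c)

theorem lip_const (c : Y) : Lip 0 fun _ : X => c := fun x y => by simp

theorem lip_id : Lip 1 fun x : X => x := fun x y => by simp

theorem lip_norm : Lip 1 fun x : X => ‖x‖ := fun x y => by
  simpa using abs_norm_sub_norm_le x y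

theorem Lip.norm_le {L : ℝ} {f : X → Y} (hf : Lip L f) (x y : X) :
    ‖f x‖ ≤ ‖f y‖ + L * ‖x - y‖ := by
  have := hf x y
  have h2 := norm_sub_norm_le (f x) (f y)
  linarith

theorem Lip.sum {ι : Type*} (s : Finset ι) {L : ι → ℝ} {f : ι → X → Y}
    (hf : ∀ i ∈ s, Lip (L i) (f i)) : Lip (∑ i ∈ s, L i) fun x => ∑ i ∈ s, f i x := fun x y => by
  rw [← Finset.sum_sub_distrib, Finset.sum_mul]
  exact (norm_sum_le _ _).trans (Finset.sum_le_sum fun i hi => hf i hi x y)

end Lip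

section Gr
variable {P Y : Type*} [NormedAddCommGroup P] [NormedAddCommGroup Y]

/-- polynomial upper bound -/
def Gr (u : P → ℝ) : Prop := ∃ (C : ℝ) (N : ℕ), 0 ≤ C ∧ ∀ p, u p ≤ C * (1 + ‖p‖) ^ N

theorem Gr.of {u : P → ℝ} (h : ∃ (C : ℝ) (N : ℕ), ∀ p, u p ≤ C * (1 + ‖p‖) ^ N) : Gr u := by
  obtain ⟨C, N, h⟩ := h
  exact ⟨|C|, N, abs_nonneg _, fun p => (h p).trans (by gcongr; exact le_abs_self C)⟩

theorem Gr.mono {u v : P → ℝ} (h : Gr v) (huv : ∀ p, u p ≤ v p) : Gr u := by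
  obtain ⟨C, N, h0, h⟩ := h
  exact ⟨C, N, h0, fun p => (huv p).trans (h p)⟩

theorem Gr.const (c : ℝ) : Gr fun _ : P => c := Gr.of ⟨c, 0, fun p => by simp⟩

theorem Gr.norm : Gr fun p : P => ‖p‖ := ⟨1, 1, zero_le_one, fun p => by simp⟩

theorem Gr.two {u v : P → ℝ} (hu : Gr u) (hv : Gr v) : ∃ (C : ℝ) (N : ℕ), 0 ≤ C ∧
    ∀ p, u p ≤ C * (1 + ‖p‖) ^ N ∧ v p ≤ C * (1 + ‖p‖) ^ N := by
  obtain ⟨C, N, h0, h⟩ := hu
  obtain ⟨C', N', h0', h'⟩ := hv
  refine ⟨C + C', N + N', by positivity, fun p => ?_⟩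
  have h1 : 1 ≤ 1 + ‖p‖ := by simp
  exact ⟨(h p).trans (by gcongr <;> simp [h0']), (h' p).trans (by gcongr <;> simp [h0])⟩

theorem Gr.add {u v : P → ℝ} (hu : Gr u) (hv : Gr v) : Gr fun p => u p + v p := by
  obtain ⟨C, N, h0, h⟩ := hu.two hv
  exact ⟨2 * C, N, by positivity, fun p => by linarith [(h p).1, (h p).2]⟩

theorem Gr.mul {u v : P → ℝ} (hu : Gr u) (hv : Gr v) (hv0 : ∀ p, 0 ≤ v p) :
    Gr fun p => u p * v p := by
  obtain ⟨C, N, h0, h⟩ := hu.two hv
  refine ⟨C * C, N + N, by positivity, fun p => ?_⟩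
  refine (mul_le_mul (h p).1 (h p).2 (hv0 p) (by positivity)).trans_eq ?_
  ring

theorem Gr.sum {ι : Type*} (s : Finset ι) {u : ι → P → ℝ} (h : ∀ i ∈ s, Gr (u i)) :
    Gr fun p => ∑ i ∈ s, u i p := by
  classical
  induction s using Finset.induction_on with
  | empty => simpa using Gr.const 0
  | insert a s ha ih =>
    simp only [Finset.sum_insert ha]
    exact (h a (Finset.mem_insert_self _ _)).add (ih fun i hi => h i (Finset.mem_insert_of_mem hi))

theorem Gr.comp {u : Y → ℝ} {g : P → Y} (hu : Gr u) (hg : Gr fun p => ‖g p‖) :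
    Gr fun p => u (g p) := by
  obtain ⟨C, N, h0, h⟩ := hu
  obtain ⟨C', N', h0', h'⟩ := (Gr.const 1).add hg
  refine ⟨C * C' ^ N, N' * N, by positivity, fun p => (h _).trans ?_⟩
  rw [mul_assoc, pow_mul, ← mul_pow]
  gcongr
  exact h' p

variable [NormedSpace ℝ P] [NormedSpace ℝ Y]

theorem pg1_iff {f : P → Y} :
    PG1 f ↔ ContDiff ℝ 1 f ∧ (Gr fun p => ‖f p‖) ∧ Gr fun p => ‖fderiv ℝ f p‖ := by
  constructor
  · rintro ⟨h, C, N, h'⟩
    exact ⟨h, Gr.of ⟨C, N, fun p => (h' p).1⟩, Gr.of ⟨C, N, fun p => (h' p).2⟩⟩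
  · rintro ⟨h, h1, h2⟩
    obtain ⟨C, N, -, h'⟩ := h1.two h2
    exact ⟨h, C, N, h'⟩

theorem pg1_const (c : Y) : PG1 fun _ : P => c :=
  pg1_iff.2 ⟨contDiff_const, Gr.const _, by simpa using Gr.const 0⟩

end Gr

section
variable {P Y W : Type*} [NormedAddCommGroup P] [NormedSpace ℝ P]
  [NormedAddCommGroup Y] [NormedSpace ℝ Y] [NormedAddCommGroup W] [NormedSpace ℝ W]

theorem TG.sm {f : P → Y} (hf : TG f) : Sm f := hf.1

/-- `‖iteratedFDeriv n (fderiv f)‖ = ‖iteratedFDeriv (n+1) f‖` (`norm_iteratedFDeriv_fderiv`). -/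
theorem TG.fderiv {f : P → Y} (hf : TG f) : TG (fderiv ℝ f) := by
  refine ⟨hf.1.fderiv_right (m := ((⊤ : ℕ∞) : WithTop ℕ∞)) (by exact_mod_cast le_rfl), fun n => ?_⟩
  obtain ⟨k, C, h⟩ := hf.2 (n + 1)
  exact ⟨k, C, fun x => by rw [norm_iteratedFDeriv_fderiv]; exact h x⟩

theorem TG.fderiv_apply {f : P → Y} {V : P → P} (hf : TG f) (hV : TG V) :
    TG fun p => _root_.fderiv ℝ f p (V p) := by
  exact (ContinuousLinearMap.id ℝ (P →L[ℝ] Y)).bilinear_hasTemperateGrowth (TG.fderiv hf) hV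

theorem TG.D1 {f : P → Y} (hf : TG f) (v : P) : TG (D1 v f) := by
  exact TG.fderiv_apply hf (Function.HasTemperateGrowth.const v)

theorem TG.prodMk {f : P → Y} {g : P → W} (hf : TG f) (hg : TG g) : TG fun p => (f p, g p) := by
  have := ((ContinuousLinearMap.inl ℝ Y W).hasTemperateGrowth.comp hf).add
    ((ContinuousLinearMap.inr ℝ Y W).hasTemperateGrowth.comp hg)
  convert this using 1
  funext p
  simp

theorem TG.clm {f : P → Y} (hf : TG f) (L : Y →L[ℝ] W) : TG fun p => L (f p) :=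
  L.hasTemperateGrowth.comp hf

theorem tg_pi {ι : Type*} [Fintype ι] {f : P → ι → Y} (hf : ∀ i, TG fun p => f p i) : TG f := by
  classical
  have := Function.HasTemperateGrowth.sum (s := Finset.univ)
    fun i _ => TG.clm (hf i) (ContinuousLinearMap.single ℝ (fun _ : ι => Y) i)
  convert this using 1
  funext p
  simp [Finset.univ_sum_single]

theorem tg_toLp {d : ℕ} {f : Fin d → P → ℝ} (hf : ∀ c, TG (f c)) :
    TG fun p => (WithLp.toLp 2 fun c => f c p : E d) := by
  exact TG.clm (tg_pi (f := fun p c => f c p) hf)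
    (EuclideanSpace.equiv (Fin d) ℝ).symm.toContinuousLinearMap

theorem TG.coord {d : ℕ} {f : P → E d} (hf : TG f) (c : Fin d) : TG fun p => f p c := by
  exact TG.clm hf (EuclideanSpace.proj c)

theorem TG.growth {f : P → Y} (hf : TG f) : ∃ (C : ℝ) (N : ℕ), ∀ p, ‖f p‖ ≤ C * (1 + ‖p‖) ^ N := by
  obtain ⟨k, C, h⟩ := hf.2 0
  exact ⟨C, k, fun p => by simpa using h p⟩

theorem TG.pg1 {f : P → Y} (hf : TG f) : PG1 f := by
  exact pg1_iff.2 ⟨hf.1.of_le (by exact_mod_cast le_top), Gr.of (TG.growth hf),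
    Gr.of (TG.growth (TG.fderiv hf))⟩

/-- Coinduction: a set of smooth functions of polynomial growth that is closed under the
derivatives along a basis consists of functions of temperate growth.  Induct on `n` for all members
at once, writing `fderiv f = ∑ i, D1 (b i) f • b.coord i`. -/
theorem tg_of_closed {ι : Type*} [Fintype ι] [FiniteDimensional ℝ P] (b : Module.Basis ι ℝ P)
    (𝒜 : Set (P → ℝ)) (hs : ∀ f ∈ 𝒜, Sm f)
    (hg : ∀ f ∈ 𝒜, ∃ (C : ℝ) (N : ℕ), ∀ p, |f p| ≤ C * (1 + ‖p‖) ^ N)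
    (hc : ∀ f ∈ 𝒜, ∀ i, D1 (b i) f ∈ 𝒜) : ∀ f ∈ 𝒜, TG f := by
  have key : ∀ n : ℕ, ∀ f ∈ 𝒜, Gr fun p => ‖iteratedFDeriv ℝ n f p‖ := by
    intro n
    induction n with
    | zero => exact fun f hf => Gr.of (by simpa using hg f hf)
    | succ n ih =>
      intro f hf
      set L : ι → ℝ →L[ℝ] P →L[ℝ] ℝ := fun i =>
        (1 : ℝ →L[ℝ] ℝ).smulRight (LinearMap.toContinuousLinearMap (b.coord i)) with hL
      have e : fderiv ℝ f = fun p => ∑ i, L i (D1 (b i) f p) := by
        funext p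
        ext v
        conv_lhs => rw [← b.sum_repr v, map_sum]
        simp [hL, D1, mul_comm]
      refine (Gr.sum Finset.univ fun i _ => (Gr.const ‖L i‖).mul (ih _ (hc f hf i))
        fun _ => norm_nonneg _).mono fun p => ?_
      have hsm : ∀ i, ContDiff ℝ n (D1 (b i) f) := fun i =>
        (hs _ (hc f hf i)).of_le (by exact_mod_cast le_top)
      rw [← norm_iteratedFDeriv_fderiv, e, iteratedFDeriv_fun_sum_apply
        (f := fun i p => L i (D1 (b i) f p)) fun i _ => ((L i).contDiff.comp (hsm i)).contDiffAt]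
      refine (norm_sum_le _ _).trans (Finset.sum_le_sum fun i _ => ?_)
      exact (L i).norm_iteratedFDeriv_comp_left (hsm i).contDiffAt le_rfl
  intro f hf
  refine ⟨hs f hf, fun n => ?_⟩
  obtain ⟨C, N, -, h⟩ := key n f hf
  exact ⟨N, C, h⟩

theorem PG1.mul {f g : P → ℝ} (hf : PG1 f) (hg : PG1 g) : PG1 fun p => f p * g p := by
  obtain ⟨f1, f2, f3⟩ := pg1_iff.1 hf
  obtain ⟨g1, g2, g3⟩ := pg1_iff.1 hg
  refine pg1_iff.2 ⟨f1.mul g1, (f2.mul g2 fun _ => norm_nonneg _).mono fun p => norm_mul_le _ _,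
    ((f2.mul g3 fun _ => norm_nonneg _).add (g2.mul f3 fun _ => norm_nonneg _)).mono fun p => ?_⟩
  rw [fderiv_fun_mul (f1.differentiable one_ne_zero p) (g1.differentiable one_ne_zero p)]
  refine (norm_add_le _ _).trans ?_
  rw [norm_smul, norm_smul]

theorem PG1.add {f g : P → Y} (hf : PG1 f) (hg : PG1 g) : PG1 fun p => f p + g p := by
  obtain ⟨f1, f2, f3⟩ := pg1_iff.1 hf
  obtain ⟨g1, g2, g3⟩ := pg1_iff.1 hg
  refine pg1_iff.2 ⟨f1.add g1, (f2.add g2).mono fun p => norm_add_le _ _,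
    (f3.add g3).mono fun p => ?_⟩
  rw [fderiv_fun_add (f1.differentiable one_ne_zero p) (g1.differentiable one_ne_zero p)]
  exact norm_add_le _ _

theorem PG1.const_mul {f : P → ℝ} (hf : PG1 f) (c : ℝ) : PG1 fun p => c * f p := by
  exact PG1.mul (pg1_const c) hf

theorem PG1.sub {f g : P → Y} (hf : PG1 f) (hg : PG1 g) : PG1 fun p => f p - g p := by
  obtain ⟨f1, f2, f3⟩ := pg1_iff.1 hf
  obtain ⟨g1, g2, g3⟩ := pg1_iff.1 hg
  refine pg1_iff.2 ⟨f1.sub g1, (f2.add g2).mono fun p => norm_sub_le _ _,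
    (f3.add g3).mono fun p => ?_⟩
  rw [fderiv_fun_sub (f1.differentiable one_ne_zero p) (g1.differentiable one_ne_zero p)]
  exact norm_sub_le _ _

theorem PG1.sum {ι : Type*} (s : Finset ι) {f : ι → P → Y} (hf : ∀ i ∈ s, PG1 (f i)) :
    PG1 fun p => ∑ i ∈ s, f i p := by
  classical
  induction s using Finset.induction_on with
  | empty => simpa using pg1_const (0 : Y)
  | insert a s ha ih =>
    simp only [Finset.sum_insert ha]
    exact PG1.add (hf a (Finset.mem_insert_self _ _))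
      (ih fun i hi => hf i (Finset.mem_insert_of_mem hi))

/-- Composition of `PG1` maps. -/
theorem PG1.comp {f : Y → W} {g : P → Y} (hf : PG1 f) (hg : PG1 g) : PG1 fun p => f (g p) := by
  obtain ⟨f1, f2, f3⟩ := pg1_iff.1 hf
  obtain ⟨g1, g2, g3⟩ := pg1_iff.1 hg
  refine pg1_iff.2 ⟨f1.comp g1, f2.comp g2,
    ((f3.comp g2).mul g3 fun _ => norm_nonneg _).mono fun p => ?_⟩
  rw [fderiv_fun_comp p (f1.differentiable one_ne_zero _) (g1.differentiable one_ne_zero p)]
  exact ContinuousLinearMap.opNorm_comp_le _ _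

theorem pg1_of_fderiv_le {f : P → Y} (hf : ContDiff ℝ 1 f) {L : ℝ} (hL : ∀ p, ‖fderiv ℝ f p‖ ≤ L) :
    PG1 f := by
  refine pg1_iff.2 ⟨hf, ((Gr.const ‖f 0‖).add ((Gr.const L).mul Gr.norm
    fun _ => norm_nonneg _)).mono fun p => ?_, (Gr.const L).mono hL⟩
  have h1 := (convex_univ (𝕜 := ℝ) (E := P)).norm_image_sub_le_of_norm_fderiv_le
    (fun x _ => hf.differentiable one_ne_zero x) (fun x _ => hL x) (mem_univ 0) (mem_univ p)
  have h2 := norm_sub_norm_le (f p) (f 0)
  rw [sub_zero] at h1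
  linarith

/-- Uniform `C¹` approximation of a Lipschitz function keeping the Lipschitz constant: convolve
with a normed bump `φ.normed μ` of radius `ε / (L+1)` (`μ` a Haar measure on `Y`);
`HasCompactSupport.contDiff_convolution_left`, `ContDiffBump.dist_normed_convolution_le`, and
`norm_fderiv_le_of_lipschitz` for the Lipschitz convolution. -/
theorem exists_smooth_approx [FiniteDimensional ℝ Y] {f : Y → ℝ} {L : ℝ} (hL : 0 ≤ L)
    (hf : Lip L f) {ε : ℝ} (hε : 0 < ε) :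
    ∃ g : Y → ℝ, ContDiff ℝ 1 g ∧ (∀ x, ‖fderiv ℝ g x‖ ≤ L) ∧ ∀ x, |g x - f x| ≤ ε := by
  borelize Y
  have hr : 0 < ε / (L + 1) := by positivity
  set φ : ContDiffBump (0 : Y) := ⟨ε / (L + 1) / 2, ε / (L + 1), half_pos hr, half_lt_self hr⟩
    with hφ
  set μ : Measure Y := Measure.addHaar with hμ
  have hc := hf.continuous
  have hi : ∀ x, Integrable (fun t => φ.normed μ t * f (x - t)) μ := fun x =>
    (φ.continuous_normed.mul (hc.comp (continuous_const.sub continuous_id)))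
      |>.integrable_of_hasCompactSupport φ.hasCompactSupport_normed.mul_right
  refine ⟨convolution (φ.normed μ) f (ContinuousLinearMap.lsmul ℝ ℝ) μ,
    φ.hasCompactSupport_normed.contDiff_convolution_left _ φ.contDiff_normed
      hc.locallyIntegrable, fun x => ?_, fun x => ?_⟩
  · refine norm_fderiv_le_of_lip' ℝ hL (Filter.Eventually.of_forall fun y => ?_)
    simp only [convolution_def, ContinuousLinearMap.lsmul_apply, smul_eq_mul]
    rw [← integral_sub (hi y) (hi x)]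
    refine (norm_integral_le_of_norm_le (φ.integrable_normed.mul_const (L * ‖y - x‖))
      (Filter.Eventually.of_forall fun t => ?_)).trans ?_
    · rw [← mul_sub, norm_mul, Real.norm_of_nonneg (φ.nonneg_normed t)]
      refine mul_le_mul_of_nonneg_left ?_ (φ.nonneg_normed t)
      simpa using hf (y - t) (x - t)
    · rw [integral_mul_const, φ.integral_normed, one_mul]
  · rw [← Real.dist_eq]
    refine φ.dist_normed_convolution_le hc.aestronglyMeasurable fun y hy => ?_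
    rw [dist_eq_norm]
    refine (hf y x).trans ?_
    have h1 : ‖y - x‖ ≤ ε / (L + 1) := by
      rw [← dist_eq_norm]; exact (Metric.mem_ball.1 hy).le
    refine (mul_le_mul_of_nonneg_left h1 hL).trans ?_
    rw [mul_div_assoc', div_le_iff₀ (by positivity)]
    nlinarith

end

theorem psi_eq {s : ℝ} (h1 : 1 / 4 ≤ s) (h2 : s ≤ 7 / 4) : psi s = s := by
  have : bump s = 1 := bump.one_of_mem_closedBall (by
    rw [Metric.mem_closedBall, Real.dist_eq, abs_le]
    simp only [bump]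
    constructor <;> linarith)
  simp [psi, this]

theorem psi_mem (s : ℝ) : 1 / 8 ≤ psi s ∧ psi s ≤ 2 := by
  have h0 := bump.nonneg (x := s)
  have h1 := bump.le_one (x := s)
  by_cases h : (7 / 8 : ℝ) ≤ dist s 1
  · have : bump s = 0 := bump.zero_of_le_dist h
    norm_num [psi, this]
  · rw [not_le, Real.dist_eq, abs_lt] at h
    unfold psi
    constructor <;> nlinarith

theorem tg_psi : TG psi := by
  have h : TG (bump : ℝ → ℝ) := bump.hasCompactSupport.hasTemperateGrowth bump.contDiff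
  unfold psi
  fun_prop

theorem tg_deriv_psi : TG (deriv psi) := by
  exact TG.D1 tg_psi 1

theorem deriv_psi_eq {s : ℝ} (h1 : 1 / 4 < s) (h2 : s < 7 / 4) : deriv psi s = 1 := by
  have : psi =ᶠ[nhds s] id := by
    filter_upwards [Ioo_mem_nhds h1 h2] with t ht using psi_eq ht.1.le ht.2.le
  rw [this.deriv_eq, deriv_id]

theorem lev_mem {θ : Th} (hθ : ‖θ‖ ≤ 1 / 2) : 1 / 2 ≤ lev θ ∧ lev θ ≤ 1 := by
  have h0 := abs_le.1 ((norm_le_pi_norm θ 0).trans hθ)
  have h1 := abs_le.1 ((norm_le_pi_norm θ 1).trans hθ)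
  simp only [lev, Fin.sum_univ_two]
  constructor <;> nlinarith

theorem tg_lev_pos (d : ℕ) : TG fun p : Pt d => (lev p.1, pos p.1 p.2) := by
  have h1 : ∀ k, TG fun p : Pt d => p.1 k := fun k =>
    ((ContinuousLinearMap.proj k).comp (ContinuousLinearMap.fst ℝ Th (Om d))).hasTemperateGrowth
  have h2 : ∀ k, TG fun p : Pt d => p.2 k := fun k =>
    ((ContinuousLinearMap.proj k).comp (ContinuousLinearMap.snd ℝ Th (Om d))).hasTemperateGrowth
  refine TG.prodMk ?_ ?_
  · exact (Function.HasTemperateGrowth.const 1).sub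
      (Function.HasTemperateGrowth.sum fun k _ => (h1 k).pow 2)
  · exact Function.HasTemperateGrowth.sum fun k _ => (h1 k).smul (h2 k)

theorem norm_pos_le {d : ℕ} {θ : Th} (hθ : ‖θ‖ ≤ 1 / 2) (ω : Om d) : ‖pos θ ω‖ ≤ ‖ω‖ := by
  have h : ∀ k, ‖θ k • ω k‖ ≤ 1 / 2 * ‖ω‖ := fun k => by
    rw [norm_smul]
    exact mul_le_mul ((norm_le_pi_norm θ k).trans hθ) (norm_le_pi_norm ω k) (norm_nonneg _)
      (by norm_num)
  rw [pos, Fin.sum_univ_two]
  linarith [norm_add_le (θ 0 • ω 0) (θ 1 • ω 1), h 0, h 1]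

theorem pos_add {d : ℕ} (θ : Th) (ω ω' : Om d) : pos θ (ω + ω') = pos θ ω + pos θ ω' := by
  simp [pos, Finset.sum_add_distrib]

theorem pos_sub {d : ℕ} (θ : Th) (ω ω' : Om d) : pos θ (ω - ω') = pos θ ω - pos θ ω' := by
  simp [pos, smul_sub, Finset.sum_sub_distrib]

theorem norm_eu (k : Fin 2) : ‖eu k‖ = 1 := by
  simp [eu, Pi.norm_single]

theorem one_le_Cq (K : ℕ) : 1 ≤ Cq K := by
  unfold Cq
  have h1 : 0 ≤ ∑ l ∈ Finset.range (K + 1), |qc K l| := by positivity
  have h2 : 0 ≤ ∑ j ∈ Finset.range (K + 1), ∑ i ∈ Finset.range (K + 1), |qw K j i| := by positivity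
  linarith

theorem sum_qc_le (K : ℕ) : ∑ l ∈ Finset.range (K + 1), |qc K l| ≤ Cq K := by
  unfold Cq
  have h2 : 0 ≤ ∑ j ∈ Finset.range (K + 1), ∑ i ∈ Finset.range (K + 1), |qw K j i| := by positivity
  linarith

theorem sum_qw_le (K : ℕ) {j : ℕ} (hj : j ≤ K) :
    ∑ i ∈ Finset.range (K + 1), |qw K j i| ≤ Cq K := by
  unfold Cq
  have h1 : 0 ≤ ∑ l ∈ Finset.range (K + 1), |qc K l| := by positivity
  have h2 := Finset.single_le_sum (f := fun j => ∑ i ∈ Finset.range (K + 1), |qw K j i|)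
    (fun _ _ => by positivity) (Finset.mem_range.2 (Nat.lt_succ_of_le hj))
  linarith

end Crest.Agent.R285
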